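import Vale.Agent.H13.P069.Reflexive

/-!
The dual norm of `Y` is asymptotically midpoint uniformly convex.
-/

namespace Vale.Agent.H13.P069

open Set Filter Topology
open scoped ENNReal

theorem ps_eq_zero_of_mem {F : Finset (ℕ × List ℕ)} (hF : IsTree F) {w : Y}
    (hw : ∀ p ∈ F, cz w p = 0) {n : ℕ} {l : List ℕ} (h : (n, l) ∈ F) : ps w n l = 0 := by
  induction l with
  | nil => rw [ps_nil, hw _ h]
  | cons k l ih => rw [ps_cons, hw _ h, ih (hF.1 n k l h), add_zero]

/-- coordinates of the four parts of `w` -/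
noncomputable def partc (φ : ℝ → ℝ) (c : ℝ → Prop) (z w : Y) : ℕ × List ℕ → ℝ
  | (n, []) => haveI := Classical.dec (c (ps z n [])); if c (ps z n []) then φ (ps w n []) else 0
  | (n, k :: l) =>
    haveI := Classical.dec (c (ps z n (k :: l)));
    if c (ps z n (k :: l)) then φ (ps w n (k :: l)) - φ (ps w n l) else 0

structure GoodFn (φ : ℝ → ℝ) : Prop where
  lip : ∀ a b, |φ a - φ b| ≤ |a - b|
  zero : φ 0 = 0
  nonneg : ∀ a, 0 ≤ φ a

theorem GoodFn.le_abs {φ : ℝ → ℝ} (h : GoodFn φ) (a : ℝ) : φ a ≤ |a| := by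
  have := h.lip a 0
  rw [h.zero, sub_zero, sub_zero, abs_of_nonneg (h.nonneg a)] at this
  exact this

theorem good_pos : GoodFn fun a => max a 0 :=
  ⟨fun a b => abs_max_sub_max_le_abs a b 0, by simp, fun a => le_max_right _ _⟩

theorem good_neg : GoodFn fun a => max (-a) 0 :=
  ⟨fun a b => by
    refine (abs_max_sub_max_le_abs (-a) (-b) 0).trans ?_
    rw [neg_sub_neg, abs_sub_comm], by simp, fun a => le_max_right _ _⟩

theorem abs_partc_le {φ : ℝ → ℝ} (hφ : GoodFn φ) (c : ℝ → Prop) (z w : Y) (p : ℕ × List ℕ) :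
    |partc φ c z w p| ≤ |cz w p| := by
  obtain ⟨n, l⟩ := p
  cases l with
  | nil =>
    simp only [partc]
    split_ifs
    · rw [ps_nil, abs_of_nonneg (hφ.nonneg _)]
      exact hφ.le_abs _
    · rw [abs_zero]; positivity
  | cons k l =>
    simp only [partc]
    split_ifs
    · refine (hφ.lip _ _).trans ?_
      rw [ps_cons]
      apply le_of_eq
      congr 1
      ring
    · rw [abs_zero]; positivity

theorem psum_partc {φ : ℝ → ℝ} (hφ : GoodFn φ) (c : ℝ → Prop) {F : Finset (ℕ × List ℕ)}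
    (hF : IsTree F) {z w : Y} (hz : ∀ p ∉ F, cz z p = 0) (hw : ∀ p ∈ F, cz w p = 0)
    (n : ℕ) (l : List ℕ) :
    psum (fun l => partc φ c z w (n, l)) l =
      haveI := Classical.dec (c (ps z n l)); if c (ps z n l) then φ (ps w n l) else 0 := by
  induction l with
  | nil => rfl
  | cons k l ih =>
    rw [psum_cons, ih]
    show (haveI := Classical.dec (c (ps z n (k :: l)));
      if c (ps z n (k :: l)) then φ (ps w n (k :: l)) - φ (ps w n l) else 0) + _ = _
    by_cases h : (n, k :: l) ∈ F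
    · have h1 := ps_eq_zero_of_mem hF hw h
      have h2 := ps_eq_zero_of_mem hF hw (hF.1 n k l h)
      rw [h1, h2, hφ.zero]
      simp
    · have h1 : ps z n (k :: l) = ps z n l := by
        rw [ps_cons, hz _ h, zero_add]
      rw [h1]
      split_ifs <;> ring

/-- The four parts of `w`. -/
noncomputable def part {φ : ℝ → ℝ} (hφ : GoodFn φ) (c : ℝ → Prop) {F : Finset (ℕ × List ℕ)}
    (hF : IsTree F) {z w : Y} (hz : ∀ p ∉ F, cz z p = 0) (hw : ∀ p ∈ F, cz w p = 0) : Y :=
  mkY (partc φ c z w)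
    (Summable.of_nonneg_of_le (fun p => by positivity) (fun p => by
      rw [← sq_abs, ← sq_abs (cz w p)]
      have := abs_partc_le hφ c z w p
      gcongr) (summable_cz w))
    (fun n l hl => by
      have := abs_partc_le hφ c z w (n, l)
      rw [cz_eq_zero w hl, abs_zero] at this
      exact abs_nonpos_iff.1 this)
    (fun n => S w n) (summable_S w)
    (fun n l => by
      rw [psum_partc hφ c hF hz hw]
      split_ifs
      · rw [abs_of_nonneg (hφ.nonneg _)]
        exact (hφ.le_abs _).trans (abs_ps_le w n l)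
      · rw [abs_zero]; exact S_nonneg _ _)

section

variable {φ : ℝ → ℝ} (hφ : GoodFn φ) (c : ℝ → Prop) {F : Finset (ℕ × List ℕ)}
    (hF : IsTree F) {z w : Y} (hz : ∀ p ∉ F, cz z p = 0) (hw : ∀ p ∈ F, cz w p = 0)

theorem cz_part (p) : cz (part hφ c hF hz hw) p = partc φ c z w p := rfl

theorem ps_part (n l) : ps (part hφ c hF hz hw) n l =
    haveI := Classical.dec (c (ps z n l)); if c (ps z n l) then φ (ps w n l) else 0 :=
  psum_partc hφ c hF hz hw n l

theorem abs_cz_part_le (p) : |cz (part hφ c hF hz hw) p| ≤ |cz w p| :=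
  abs_partc_le hφ c z w p

theorem S_part_le (n) : S (part hφ c hF hz hw) n ≤ S w n := by
  apply S_le
  intro l
  rw [ps_part]
  split_ifs
  · rw [abs_of_nonneg (hφ.nonneg _)]
    exact (hφ.le_abs _).trans (abs_ps_le w n l)
  · rw [abs_zero]; exact S_nonneg _ _

theorem norm_part_le : ‖part hφ c hF hz hw‖ ≤ ‖w‖ := by
  have h : ‖part hφ c hF hz hw‖ ^ 2 ≤ ‖(0 : Y)‖ ^ 2 + 1 * ‖w‖ ^ 2 := by
    apply norm_sq_le_of_pointwise _ _ zero_le_one
    · intro p
      have := abs_cz_part_le hφ c hF hz hw p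
      rw [cz_zero, ← sq_abs, ← sq_abs (cz w p)]
      have h0 := abs_nonneg (cz (part hφ c hF hz hw) p)
      nlinarith
    · intro n
      have := S_part_le hφ c hF hz hw n
      have h0 := S_nonneg (part hφ c hF hz hw) n
      rw [S_zero]
      nlinarith
  rw [norm_zero] at h
  exact (abs_le_of_sq_le_sq' (by nlinarith) (norm_nonneg _)).2

theorem cz_part_eq_zero {p} (hp : p ∈ F) : cz (part hφ c hF hz hw) p = 0 := by
  have := abs_cz_part_le hφ c hF hz hw p
  rw [hw p hp, abs_zero] at this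
  exact abs_nonpos_iff.1 this

/-- The main estimate: the perturbed vector has small norm. `s = -1` when `c` is `0 ≤ ·` and
`s = 1` when `c` is `· < 0`. -/
theorem norm_perturb {β : ℝ} (hβ : 0 ≤ β) {s : ℝ} (hs : s = 1 ∨ s = -1)
    (hc : ∀ a, c a → s * a ≤ 0) :
    ‖z + (β * s) • part hφ c hF hz hw‖ ^ 2 ≤ ‖z‖ ^ 2 + β ^ 2 * ‖w‖ ^ 2 := by
  have hs2 : s ^ 2 = 1 := by rcases hs with rfl | rfl <;> norm_num
  apply norm_sq_le_of_pointwise _ _ (by positivity)
  · intro p
    rw [cz_add, cz_smul]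
    have h1 := abs_cz_part_le hφ c hF hz hw p
    have h2 : cz (part hφ c hF hz hw) p ^ 2 ≤ cz w p ^ 2 := sq_le_sq.2 h1
    by_cases hp : p ∈ F
    · rw [cz_part_eq_zero hφ c hF hz hw hp]
      nlinarith [sq_nonneg (β * cz w p)]
    · rw [hz p hp]
      have : (0 + β * s * cz (part hφ c hF hz hw) p) ^ 2 =
          s ^ 2 * (β ^ 2 * cz (part hφ c hF hz hw) p ^ 2) := by ring
      rw [this, hs2, one_mul]
      have h3 : β ^ 2 * cz (part hφ c hF hz hw) p ^ 2 ≤ β ^ 2 * cz w p ^ 2 := by gcongr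
      linarith
  · intro n
    have hmax : S (z + (β * s) • part hφ c hF hz hw) n ≤ max (S z n) (β * S w n) := by
      apply S_le
      intro l
      rw [ps_add, ps_smul, ps_part]
      split_ifs with hcl
      · have h1 := hc _ hcl
        have h2 := abs_ps_le z n l
        have h3 : φ (ps w n l) ≤ S w n := (hφ.le_abs _).trans (abs_ps_le w n l)
        have h4 := hφ.nonneg (ps w n l)
        have h5 : β * φ (ps w n l) ≤ β * S w n := by gcongr
        have h6 : 0 ≤ β * φ (ps w n l) := by positivity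
        rw [abs_le] at h2
        have h7 := le_max_left (S z n) (β * S w n)
        have h8 := le_max_right (S z n) (β * S w n)
        rw [abs_le]
        rcases hs with rfl | rfl
        · constructor <;> nlinarith
        · constructor <;> nlinarith
      · rw [mul_zero, add_zero]
        exact (abs_ps_le z n l).trans (le_max_left _ _)
    have h0 := S_nonneg (z + (β * s) • part hφ c hF hz hw) n
    have h1 := S_nonneg z n
    have h2 := S_nonneg w n
    have h3 : S (z + (β * s) • part hφ c hF hz hw) n ^ 2 ≤ (max (S z n) (β * S w n)) ^ 2 := by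
      gcongr
    refine h3.trans ?_
    rcases max_choice (S z n) (β * S w n) with h | h <;> rw [h]
    · nlinarith [sq_nonneg (β * S w n)]
    · nlinarith [sq_nonneg (S z n)]

end

theorem decomp {F : Finset (ℕ × List ℕ)}
    (hF : IsTree F) {z w : Y} (hz : ∀ p ∉ F, cz z p = 0) (hw : ∀ p ∈ F, cz w p = 0) :
    w = part good_pos (fun a => 0 ≤ a) hF hz hw + part good_pos (fun a => a < 0) hF hz hw
      - part good_neg (fun a => 0 ≤ a) hF hz hw - part good_neg (fun a => a < 0) hF hz hw := by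
  have hmm : ∀ a : ℝ, max a 0 - max (-a) 0 = a := by
    intro a
    rcases le_total 0 a with h | h
    · rw [max_eq_left h, max_eq_right (by linarith)]; ring
    · rw [max_eq_right h, max_eq_left (by linarith)]; ring
  apply ext_cz
  rintro ⟨n, l⟩
  rw [cz_sub, cz_sub, cz_add, cz_part, cz_part, cz_part, cz_part]
  cases l with
  | nil =>
    simp only [partc]
    have h := hmm (ps w n [])
    by_cases h0 : 0 ≤ ps z n []
    · simp only [h0, if_true, not_lt.2 h0, if_false]
      rw [ps_nil] at h ⊢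
      linarith
    · simp only [h0, if_false, not_le.1 h0, if_true]
      rw [ps_nil] at h ⊢
      linarith
  | cons k l =>
    simp only [partc]
    have h := hmm (ps w n (k :: l))
    have h' := hmm (ps w n l)
    have h2 : cz w (n, k :: l) = ps w n (k :: l) - ps w n l := by rw [ps_cons]; ring
    by_cases h0 : 0 ≤ ps z n (k :: l)
    · simp only [h0, if_true, not_lt.2 h0, if_false]
      linarith
    · simp only [h0, if_false, not_le.1 h0, if_true]
      linarith

theorem expand {V : Type*} [NormedAddCommGroup V] [NormedSpace ℝ V] (x y : StrongDual ℝ V)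
    (a b : ℝ) (z v : V) :
    (x + a • y) (z + b • v) = x z + b * x v + a * (y z + b * y v) := by
  simp only [_root_.add_apply, _root_.smul_apply, map_add, map_smul, smul_eq_mul]
  ring

theorem apply_P_eq_zero {F : Finset (ℕ × List ℕ)} {y : StrongDual ℝ Y}
    (hy : ∀ p ∈ F, y (e p) = 0) (v : Y) : y (P F v) = 0 := by
  rw [P_apply, map_sum]
  apply Finset.sum_eq_zero
  intro t ht
  rw [map_smul, hy t ht, smul_zero]

theorem main_part {F : Finset (ℕ × List ℕ)} (hF : IsTree F) {z w : Y}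
    (hz : ∀ p ∉ F, cz z p = 0) (hw : ∀ p ∈ F, cz w p = 0) {φ : ℝ → ℝ} (hφ : GoodFn φ)
    (c : ℝ → Prop) {s : ℝ} (hs : s = 1 ∨ s = -1) (hc : ∀ a, c a → s * a ≤ 0) (r : ℝ)
    {t β ε : ℝ} (hβ0 : 0 < β) (hβ : β = t / 16)
    (hznorm : ‖z‖ ≤ 1) (hwnorm : ‖w‖ ≤ 2) {x y : StrongDual ℝ Y} (hxz : 1 - ε ≤ x z)
    (hyz : y z = 0) (hx1 : ∀ v : Y, (∀ p ∈ F, cz v p = 0) → |x v| ≤ ε * ‖v‖) (hε0 : 0 < ε) :
    1 - ε - 2 * β * ε + t * β * (r * (s * y (part hφ c hF hz hw))) ≤
      ‖x + (r * t) • y‖ * √(1 + t ^ 2 / 64) := by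
  have h1 := norm_perturb hφ c hF hz hw hβ0.le hs hc
  have h5 : |x (part hφ c hF hz hw)| ≤ ε * 2 := by
    refine (hx1 _ ?_).trans ?_
    · intro p hp
      exact cz_part_eq_zero hφ c hF hz hw hp
    · have := (norm_part_le hφ c hF hz hw).trans hwnorm
      gcongr
  generalize part hφ c hF hz hw = v at h1 h5 ⊢
  have h2 : ‖z + (β * s) • v‖ ≤ √(1 + t ^ 2 / 64) := by
    apply Real.le_sqrt_of_sq_le
    refine h1.trans ?_
    have h3 : ‖z‖ ^ 2 ≤ 1 := by
      have := norm_nonneg z; nlinarith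
    have h4 : ‖w‖ ^ 2 ≤ 4 := by
      have := norm_nonneg w; nlinarith
    have h5 : β ^ 2 = t ^ 2 / 256 := by rw [hβ]; ring
    have h6 : 0 ≤ β ^ 2 := by positivity
    nlinarith
  have h3 : (x + (r * t) • y) (z + (β * s) • v) ≤ ‖x + (r * t) • y‖ * √(1 + t ^ 2 / 64) := by
    calc (x + (r * t) • y) (z + (β * s) • v) ≤ |(x + (r * t) • y) (z + (β * s) • v)| :=
          le_abs_self _
      _ ≤ ‖x + (r * t) • y‖ * ‖z + (β * s) • v‖ := (x + (r * t) • y).le_opNorm _
      _ ≤ _ := by gcongr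
  rw [expand, hyz] at h3
  have h6 : -(2 * β * ε) ≤ β * s * x v := by
    rw [abs_le] at h5
    rcases hs with rfl | rfl
    · nlinarith
    · nlinarith
  have h7 : r * t * (0 + β * s * y v) = t * β * (r * (s * y v)) := by ring
  rw [h7] at h3
  linarith

theorem amuc_core (x : StrongDual ℝ Y) (hx : ‖x‖ = 1) {t : ℝ} (ht : 0 < t) :
    ∃ F, IsTree F ∧ ∀ y : StrongDual ℝ Y, ‖y‖ = 1 → (∀ p ∈ F, y (e p) = 0) →
      1 + (√(1 + t ^ 2 / 64) - 1) / 2 ≤ max ‖x + t • y‖ ‖x - t • y‖ := by
  set c0 := 1 + t ^ 2 / 64 with hc0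
  have hc01 : 1 < c0 := by
    rw [hc0]
    have : 0 < t ^ 2 / 64 := by positivity
    linarith
  have hsq1 : 1 < √c0 := by
    rw [Real.lt_sqrt (by norm_num)]
    simpa using hc01
  have hsq2 : √c0 * √c0 = c0 := Real.mul_self_sqrt (by linarith)
  set β := t / 16 with hβ
  have hβ0 : 0 < β := by positivity
  set D := 1 + 2 * β + t * β / 4 with hD
  have hD1 : 1 ≤ D := by
    rw [hD]
    have : 0 < t * β / 4 := by positivity
    linarith
  set ε := (√c0 - 1) / (2 * D) with hε
  have hε0 : 0 < ε := by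
    rw [hε]
    apply div_pos (by linarith) (by linarith)
  have hεD : ε * D = (√c0 - 1) / 2 := by
    rw [hε]; field_simp
  obtain ⟨F1, hF1, hx1⟩ := exists_tree_dual x hε0
  obtain ⟨z0, hz01, hz02⟩ := exists_near x (half_pos hε0)
  obtain ⟨F2, hF2, hz03⟩ := exists_tree_approx z0 (half_pos hε0)
  set F := F1 ∪ F2 with hFdef
  have hF : IsTree F := hF1.union hF2
  set z := P F2 z0 with hzdef
  have hz : ∀ p ∉ F, cz z p = 0 := by
    intro p hp
    rw [hzdef, cz_P hF2, if_neg]
    intro h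
    exact hp (Finset.mem_union_right _ h)
  have hznorm : ‖z‖ ≤ 1 := (norm_P_le hF2 z0).trans hz01
  have hxz : 1 - ε ≤ x z := by
    have h1 : |x (z0 - z)| ≤ 1 * (ε / 2) := by
      rw [← hx]
      refine (x.le_opNorm _).trans ?_
      gcongr
    rw [map_sub] at h1
    have := (abs_le.1 h1).2
    rw [hx] at hz02
    linarith
  refine ⟨F, hF, ?_⟩
  intro y hy1 hyF
  obtain ⟨w0, hw01, hw02⟩ := exists_near y hε0
  set w := w0 - P F w0 with hwdef
  have hw : ∀ p ∈ F, cz w p = 0 := by
    intro p hp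
    rw [hwdef, cz_sub_P hF, if_pos hp]
  have hwnorm : ‖w‖ ≤ 2 := by
    have := norm_sub_P_le hF w0
    linarith
  have hyw : 1 - ε ≤ y w := by
    rw [hwdef, map_sub, apply_P_eq_zero hyF, sub_zero]
    rw [hy1] at hw02
    exact hw02
  have hyz : y z = 0 := by
    apply apply_P_eq_zero
    intro p hp
    exact hyF p (Finset.mem_union_right _ hp)
  -- main claim for one part
  have main : ∀ (φ : ℝ → ℝ) (hφ : GoodFn φ) (c : ℝ → Prop) (s : ℝ), (s = 1 ∨ s = -1) →
      (∀ a, c a → s * a ≤ 0) → ∀ r : ℝ, (r = 1 ∨ r = -1) →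
      1 - ε - 2 * β * ε + t * β * (r * (s * y (part hφ c hF hz hw))) ≤
        ‖x + (r * t) • y‖ * √c0 := by
    intro φ hφ c s hs hc r hr
    exact main_part hF hz hw hφ c hs hc r hβ0 hβ hznorm hwnorm hxz hyz
      (fun v hv => hx1 v fun p hp => hv p (Finset.mem_union_left _ hp)) hε0
  -- the sign choice
  have fin : ∀ (φ : ℝ → ℝ) (hφ : GoodFn φ) (c : ℝ → Prop) (s : ℝ), (s = 1 ∨ s = -1) →
      (∀ a, c a → s * a ≤ 0) → (1 - ε) / 4 ≤ |y (part hφ c hF hz hw)| →
      1 + (√c0 - 1) / 2 ≤ max ‖x + t • y‖ ‖x - t • y‖ := by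
    intro φ hφ c s hs hc hbig
    obtain ⟨r, hr, hrs⟩ : ∃ r : ℝ, (r = 1 ∨ r = -1) ∧
        r * (s * y (part hφ c hF hz hw)) = |y (part hφ c hF hz hw)| := by
      rcases le_total 0 (s * y (part hφ c hF hz hw)) with h | h
      · refine ⟨1, Or.inl rfl, ?_⟩
        rw [one_mul, ← abs_of_nonneg h, abs_mul]
        rcases hs with rfl | rfl <;> simp
      · refine ⟨-1, Or.inr rfl, ?_⟩
        rw [neg_one_mul, ← abs_of_nonpos h, abs_mul]
        rcases hs with rfl | rfl <;> simp
    have h1 := main φ hφ c s hs hc r hr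
    rw [hrs] at h1
    have h2 : t * β * ((1 - ε) / 4) ≤ t * β * |y (part hφ c hF hz hw)| := by gcongr
    have h3 : c0 - ε * D ≤ ‖x + (r * t) • y‖ * √c0 := by
      have : 1 - ε - 2 * β * ε + t * β * ((1 - ε) / 4) = c0 - ε * D := by
        rw [hc0, hD, hβ]; ring
      linarith
    have h4 : ‖x + (r * t) • y‖ ≤ max ‖x + t • y‖ ‖x - t • y‖ := by
      rcases hr with rfl | rfl
      · rw [one_mul]; exact le_max_left _ _
      · have : x + (-1 * t) • y = x - t • y := by module
        rw [this]; exact le_max_right _ _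
    refine le_trans ?_ h4
    set N := ‖x + (r * t) • y‖ with hN
    rw [hεD] at h3
    have h5 : (1 + (√c0 - 1) / 2) * √c0 ≤ N * √c0 := by
      refine le_trans ?_ h3
      nlinarith
    exact le_of_mul_le_mul_right h5 (by linarith)
  -- decomposition of `w`
  set A := y (part good_pos (fun a => 0 ≤ a) hF hz hw) with hA
  set B := y (part good_pos (fun a => a < 0) hF hz hw) with hB
  set C := y (part good_neg (fun a => 0 ≤ a) hF hz hw) with hC
  set E := y (part good_neg (fun a => a < 0) hF hz hw) with hE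
  have hsum : y w = A + B - C - E := by
    conv_lhs => rw [decomp hF hz hw]
    rw [map_sub, map_sub, map_add]
  by_cases h1 : (1 - ε) / 4 ≤ |A|
  · exact fin _ good_pos (fun a => 0 ≤ a) (-1) (Or.inr rfl) (fun a ha => by linarith) h1
  by_cases h2 : (1 - ε) / 4 ≤ |B|
  · exact fin _ good_pos (fun a => a < 0) 1 (Or.inl rfl) (fun a ha => by linarith) h2
  by_cases h3 : (1 - ε) / 4 ≤ |C|
  · exact fin _ good_neg (fun a => 0 ≤ a) (-1) (Or.inr rfl) (fun a ha => by linarith) h3
  by_cases h4 : (1 - ε) / 4 ≤ |E|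
  · exact fin _ good_neg (fun a => a < 0) 1 (Or.inl rfl) (fun a ha => by linarith) h4
  exfalso
  push Not at h1 h2 h3 h4
  have := le_abs_self A
  have := le_abs_self B
  have := neg_abs_le C
  have := neg_abs_le E
  linarith

end Vale.Agent.H13.P069
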