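import Vale.Agent.H13.P069.Proj

/-!
Density of finitely supported vectors in `Y` and of finitely supported functionals in `Y*`.
-/

namespace Vale.Agent.H13.P069

open Set Filter Topology
open scoped ENNReal

theorem cz_sub_P {F : Finset (ℕ × List ℕ)} (hF : IsTree F) (v : Y) (p : ℕ × List ℕ) :
    cz (v - P F v) p = if p ∈ F then 0 else cz v p := by
  rw [cz_sub, cz_P hF]
  split_ifs <;> ring

theorem tsum_cz_sub_P {F : Finset (ℕ × List ℕ)} (hF : IsTree F) (v : Y) :
    ∑' p, cz (v - P F v) p ^ 2 = ∑' p, cz v p ^ 2 - ∑ p ∈ F, cz v p ^ 2 := by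
  have h1 : ∀ p, cz (v - P F v) p ^ 2 = cz v p ^ 2 - (if p ∈ F then cz v p ^ 2 else 0) := by
    intro p
    rw [cz_sub_P hF]
    split_ifs <;> ring
  simp only [h1]
  have hs : Summable fun p => (if p ∈ F then cz v p ^ 2 else 0) := by
    apply summable_of_ne_finset_zero (s := F)
    intro p hp
    simp [hp]
  rw [(summable_cz v).tsum_sub hs]
  congr 1
  rw [tsum_eq_sum (s := F)]
  · apply Finset.sum_congr rfl
    intro p hp
    simp [hp]
  · intro p hp
    simp [hp]

theorem ps_sub (v w : Y) (n l) : ps (v - w) n l = ps v n l - ps w n l := by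
  induction l with
  | nil => rw [ps_nil, ps_nil, ps_nil, cz_sub]
  | cons k l ih => rw [ps_cons, ps_cons, ps_cons, ih, cz_sub]; ring

theorem ps_add (v w : Y) (n l) : ps (v + w) n l = ps v n l + ps w n l := by
  induction l with
  | nil => rw [ps_nil, ps_nil, ps_nil, cz_add]
  | cons k l ih => rw [ps_cons, ps_cons, ps_cons, ih, cz_add]; ring

theorem ps_smul (c : ℝ) (v : Y) (n l) : ps (c • v) n l = c * ps v n l := by
  induction l with
  | nil => rw [ps_nil, ps_nil, cz_smul]
  | cons k l ih => rw [ps_cons, ps_cons, ih, cz_smul]; ring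

theorem S_sub_le (v w : Y) (n) : S (v - w) n ≤ S v n + S w n := by
  apply S_le
  intro l
  rw [ps_sub]
  exact (abs_sub _ _).trans (add_le_add (abs_ps_le _ _ _) (abs_ps_le _ _ _))

/-- (Y5) -/
theorem exists_tree_approx (v : Y) {ε : ℝ} (hε : 0 < ε) :
    ∃ F, IsTree F ∧ ‖v - P F v‖ ≤ ε := by
  -- choose K
  have hsS := summable_S v
  obtain ⟨K, hK⟩ : ∃ K : ℕ, ∑' n, S v (n + K) ^ 2 < ε ^ 2 / 8 := by
    have h := tendsto_sum_nat_add fun n => S v n ^ 2
    exact (h.eventually_lt_const (by positivity : (0 : ℝ) < ε ^ 2 / 8)).exists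
  set δ := ε ^ 2 / (2 * ((K : ℝ) + 1) ^ 2) with hδ
  have hδpos : 0 < δ := by positivity
  obtain ⟨s, hs⟩ : ∃ s : Finset (ℕ × List ℕ), ∑' p, cz v p ^ 2 - δ < ∑ p ∈ s, cz v p ^ 2 := by
    have h := (summable_cz v).hasSum
    have h2 := h.eventually_const_lt (u := ∑' p, cz v p ^ 2 - δ) (by linarith)
    exact h2.exists
  set F := treeOf s with hF
  have hFt : IsTree F := isTree_treeOf s
  have hsum : ∑ p ∈ s, cz v p ^ 2 ≤ ∑ p ∈ F, cz v p ^ 2 := by
    have h1 : ∑ p ∈ s.filter (fun p => p.2.length ≤ p.1), cz v p ^ 2 = ∑ p ∈ s, cz v p ^ 2 := by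
      apply Finset.sum_filter_of_ne
      intro p _ hp
      by_contra hcon
      push Not at hcon
      apply hp
      rw [cz_eq_zero (n := p.1) (l := p.2) v hcon]
      norm_num
    rw [← h1]
    apply Finset.sum_le_sum_of_subset_of_nonneg
    · intro p hp
      rw [Finset.mem_filter] at hp
      exact mem_treeOf_self (n := p.1) (l := p.2) hp.1 hp.2
    · intro p _ _
      positivity
  set u := v - P F v with hu
  have hcz : ∑' p, cz u p ^ 2 ≤ δ := by
    rw [hu, tsum_cz_sub_P hFt]
    linarith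
  refine ⟨F, hFt, ?_⟩
  have hcz0 : 0 ≤ ∑' p, cz u p ^ 2 := tsum_nonneg fun p => by positivity
  apply norm_le_of hε.le
  · refine hcz.trans ?_
    rw [hδ, div_le_iff₀ (by positivity)]
    have : (1 : ℝ) ≤ ((K : ℝ) + 1) ^ 2 := by
      have : (0 : ℝ) ≤ K := Nat.cast_nonneg K
      nlinarith
    nlinarith [sq_nonneg ε]
  · rw [← (summable_S u).sum_add_tsum_nat_add K]
    have h1 : ∑ n ∈ Finset.range K, S u n ^ 2 ≤ ε ^ 2 / 2 := by
      calc ∑ n ∈ Finset.range K, S u n ^ 2 ≤ ∑ n ∈ Finset.range K, ((K : ℝ) + 1) * δ := by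
            apply Finset.sum_le_sum
            intro n hn
            rw [Finset.mem_range] at hn
            refine (sq_S_le u n).trans ?_
            have : (n : ℝ) ≤ K := by exact_mod_cast hn.le
            gcongr
        _ = K * (((K : ℝ) + 1) * δ) := by simp
        _ ≤ ((K : ℝ) + 1) * (((K : ℝ) + 1) * δ) := by
            gcongr
            linarith
        _ = ε ^ 2 / 2 := by
            rw [hδ]; field_simp
    have h2 : ∑' n, S u (n + K) ^ 2 ≤ ε ^ 2 / 2 := by
      have hle : ∀ n, S u (n + K) ^ 2 ≤ 4 * S v (n + K) ^ 2 := by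
        intro n
        have h3 : S u (n + K) ≤ 2 * S v (n + K) := by
          refine (S_sub_le _ _ _).trans ?_
          have := S_P_le hFt v (n + K)
          linarith
        have h4 := S_nonneg u (n + K)
        nlinarith
      have hs1 : Summable fun n => S u (n + K) ^ 2 :=
        (summable_nat_add_iff (f := fun n => S u n ^ 2) K).2 (summable_S u)
      have hs2 : Summable fun n => S v (n + K) ^ 2 :=
        (summable_nat_add_iff (f := fun n => S v n ^ 2) K).2 (summable_S v)
      calc ∑' n, S u (n + K) ^ 2 ≤ ∑' n, 4 * S v (n + K) ^ 2 :=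
            Summable.tsum_le_tsum hle hs1 (hs2.mul_left 4)
        _ = 4 * ∑' n, S v (n + K) ^ 2 := tsum_mul_left
        _ ≤ ε ^ 2 / 2 := by linarith
    linarith

end Vale.Agent.H13.P069
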