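import Vale.Agent.H13.P069.Approx

/-!
Every functional on `Y` is small on vectors vanishing on a large finite tree.
-/

namespace Vale.Agent.H13.P069

open Set Filter Topology
open scoped ENNReal

theorem trick {M δ β a s : ℝ} (hM : 0 ≤ M) (hβ : 0 < β) (h1 : M - δ ≤ a)
    (h2 : a + β * s ≤ M * √(1 + β ^ 2)) : s ≤ δ / β + M * β / 2 := by
  have h3 : √(1 + β ^ 2) ≤ 1 + β ^ 2 / 2 := by
    rw [Real.sqrt_le_left (by positivity)]
    nlinarith [sq_nonneg (β ^ 2)]
  have h4 : M * √(1 + β ^ 2) ≤ M * (1 + β ^ 2 / 2) := by gcongr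
  have h5 : β * s ≤ δ + M * β ^ 2 / 2 := by linarith
  have h6 : s = (β * s) / β := by field_simp
  have h7 : δ / β + M * β / 2 = (δ + M * β ^ 2 / 2) / β := by field_simp
  rw [h6, h7]
  gcongr

theorem norm_sq_le_of_pointwise {v z w : Y} {b : ℝ}
    (h1 : ∀ p, cz v p ^ 2 ≤ cz z p ^ 2 + b * cz w p ^ 2)
    (h2 : ∀ n, S v n ^ 2 ≤ S z n ^ 2 + b * S w n ^ 2) (hb : 0 ≤ b) :
    ‖v‖ ^ 2 ≤ ‖z‖ ^ 2 + b * ‖w‖ ^ 2 := by
  apply sq_norm_le_of
  · calc ∑' p, cz v p ^ 2 ≤ ∑' p, (cz z p ^ 2 + b * cz w p ^ 2) :=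
          Summable.tsum_le_tsum h1 (summable_cz v)
            ((summable_cz z).add ((summable_cz w).mul_left b))
      _ = ∑' p, cz z p ^ 2 + b * ∑' p, cz w p ^ 2 := by
          rw [(summable_cz z).tsum_add ((summable_cz w).mul_left b), tsum_mul_left]
      _ ≤ _ := by
          have := tsum_cz_le z
          have := tsum_cz_le w
          gcongr
  · calc ∑' p, S v p ^ 2 ≤ ∑' p, (S z p ^ 2 + b * S w p ^ 2) :=
          Summable.tsum_le_tsum h2 (summable_S v)
            ((summable_S z).add ((summable_S w).mul_left b))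
      _ = ∑' p, S z p ^ 2 + b * ∑' p, S w p ^ 2 := by
          rw [(summable_S z).tsum_add ((summable_S w).mul_left b), tsum_mul_left]
      _ ≤ _ := by
          have := tsum_S_le z
          have := tsum_S_le w
          gcongr

theorem exists_near {V : Type*} [NormedAddCommGroup V] [NormedSpace ℝ V] (x : StrongDual ℝ V)
    {δ : ℝ} (hδ : 0 < δ) : ∃ z : V, ‖z‖ ≤ 1 ∧ ‖x‖ - δ ≤ x z := by
  by_cases h : ‖x‖ - δ < 0
  · exact ⟨0, by simp, by simpa using h.le⟩
  · push Not at h
    obtain ⟨z, hz1, hz2⟩ := ContinuousLinearMap.exists_lt_apply_of_lt_opNorm x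
      (r := ‖x‖ - δ) (by linarith)
    rw [Real.norm_eq_abs] at hz2
    rcases le_or_gt 0 (x z) with h0 | h0
    · rw [abs_of_nonneg h0] at hz2
      exact ⟨z, hz1.le, hz2.le⟩
    · rw [abs_of_neg h0] at hz2
      exact ⟨-z, by simpa using hz1.le, by rw [map_neg]; exact hz2.le⟩

theorem ps_congr {v w : Y} {n : ℕ} (h : ∀ l, cz v (n, l) = cz w (n, l)) (l) :
    ps v n l = ps w n l := by
  unfold ps
  congr 1
  funext l
  exact h l

theorem S_congr {v w : Y} {n : ℕ} (h : ∀ l, cz v (n, l) = cz w (n, l)) : S v n = S w n := by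
  apply le_antisymm
  · apply S_le
    intro l
    rw [ps_congr h]
    exact abs_ps_le _ _ _
  · apply S_le
    intro l
    rw [← ps_congr h]
    exact abs_ps_le _ _ _

theorem S_zero (n : ℕ) : S (0 : Y) n = 0 := by
  apply le_antisymm _ (S_nonneg _ _)
  apply S_le
  intro l
  have : ps (0 : Y) n l = 0 := psum_zero l
  rw [this, abs_zero]

theorem S_smul (c : ℝ) (v : Y) (n) : S (c • v) n = |c| * S v n := by
  unfold S
  rw [map_smul, Prod.smul_snd, map_smul, norm_smul, Real.norm_eq_abs]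

/-- first step: components with large index -/
theorem exists_large (x : StrongDual ℝ Y) {ε : ℝ} (hε : 0 < ε) :
    ∃ K : ℕ, ∀ w : Y, (∀ n l, n < K → cz w (n, l) = 0) → |x w| ≤ ε * ‖w‖ := by
  set M := ‖x‖ with hM
  have hM0 : 0 ≤ M := norm_nonneg x
  set β := ε / (M + 1) with hβ
  have hβ0 : 0 < β := by positivity
  set δ := β * ε / 2 with hδ
  have hδ0 : 0 < δ := by positivity
  obtain ⟨z, hz1, hz2⟩ := exists_near x (half_pos hδ0)
  obtain ⟨F, hF, hFz⟩ := exists_tree_approx z (ε := δ / (2 * (M + 1))) (by positivity)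
  have hz'1 : ‖P F z‖ ≤ 1 := (norm_P_le hF z).trans hz1
  have hz'2 : M - δ ≤ x (P F z) := by
    have h1 : |x (z - P F z)| ≤ M * (δ / (2 * (M + 1))) := by
      refine (x.le_opNorm _).trans ?_
      gcongr
    have h2 : M * (δ / (2 * (M + 1))) ≤ δ / 2 := by
      rw [mul_div_assoc', div_le_div_iff₀ (by positivity) (by positivity)]
      nlinarith
    rw [map_sub] at h1
    have := (abs_le.1 h1).2
    linarith
  obtain ⟨K, hK⟩ : ∃ K : ℕ, ∀ p ∈ F, p.1 < K := by
    refine ⟨F.sup (fun p => p.1) + 1, ?_⟩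
    intro p hp
    have : p.1 ≤ F.sup (fun p => p.1) := Finset.le_sup (f := fun p : ℕ × List ℕ => p.1) hp
    omega
  have hPz : ∀ n l, K ≤ n → cz (P F z) (n, l) = 0 := by
    intro n l hn
    rw [cz_P hF, if_neg]
    intro hmem
    have := hK _ hmem
    simp at this
    omega
  refine ⟨K, ?_⟩
  have key : ∀ w : Y, ‖w‖ ≤ 1 → (∀ n l, n < K → cz w (n, l) = 0) → x w ≤ ε := by
    intro w hw hwK
    have hnorm : ‖P F z + β • w‖ ^ 2 ≤ ‖P F z‖ ^ 2 + β ^ 2 * ‖w‖ ^ 2 := by
      apply norm_sq_le_of_pointwise _ _ (by positivity)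
      · rintro ⟨n, l⟩
        rw [cz_add, cz_smul]
        by_cases hn : n < K
        · rw [hwK n l hn]; nlinarith
        · rw [hPz n l (by omega)]; nlinarith
      · intro n
        by_cases hn : n < K
        · have : S (P F z + β • w) n = S (P F z) n := by
            apply S_congr
            intro l
            rw [cz_add, cz_smul, hwK n l hn]; ring
          rw [this]
          nlinarith [sq_nonneg (β * S w n)]
        · have : S (P F z + β • w) n = S (β • w) n := by
            apply S_congr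
            intro l
            rw [cz_add, hPz n l (by omega)]; ring
          rw [this, S_smul, abs_of_pos hβ0]
          nlinarith [sq_nonneg (S (P F z) n)]
    have hnorm2 : ‖P F z + β • w‖ ≤ √(1 + β ^ 2) := by
      apply Real.le_sqrt_of_sq_le
      refine hnorm.trans ?_
      have h1 : ‖P F z‖ ^ 2 ≤ 1 := by
        have := norm_nonneg (P F z); nlinarith
      have h2 : ‖w‖ ^ 2 ≤ 1 := by
        have := norm_nonneg w; nlinarith
      have h3 : 0 ≤ β ^ 2 := by positivity
      nlinarith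
    have h4 : x (P F z) + β * x w ≤ M * √(1 + β ^ 2) := by
      have : x (P F z) + β * x w = x (P F z + β • w) := by
        rw [map_add, map_smul, smul_eq_mul]
      rw [this]
      calc x (P F z + β • w) ≤ |x (P F z + β • w)| := le_abs_self _
        _ ≤ M * ‖P F z + β • w‖ := x.le_opNorm _
        _ ≤ _ := by gcongr
    have h5 := trick hM0 hβ0 hz'2 h4
    have h6 : δ / β = ε / 2 := by rw [hδ]; field_simp
    have h7 : M * β / 2 ≤ ε / 2 := by
      have : M * β ≤ ε := by
        rw [hβ, mul_div_assoc', div_le_iff₀ (by positivity)]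
        nlinarith
      linarith
    linarith
  intro w hw
  rcases eq_or_ne w 0 with rfl | hw0
  · simp
  have hpos : 0 < ‖w‖ := norm_pos_iff.2 hw0
  have hk : ∀ s : ℝ, |s| = 1 → s * x w ≤ ε * ‖w‖ := by
    intro s hs
    have h1 := key ((s * ‖w‖⁻¹) • w) (by
      rw [norm_smul, norm_mul, norm_inv, norm_norm, Real.norm_eq_abs, hs, one_mul,
        inv_mul_cancel₀ hpos.ne']) (by
      intro n l hn
      rw [cz_smul, hw n l hn, mul_zero])
    rw [map_smul, smul_eq_mul] at h1
    have h2 : s * x w = (s * ‖w‖⁻¹ * x w) * ‖w‖ := by field_simp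
    rw [h2]
    gcongr
  rw [abs_le']
  exact ⟨by simpa using hk 1 (by simp), by simpa using hk (-1) (by simp)⟩

end Vale.Agent.H13.P069
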