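import Vale.Agent.H13.P069.DualApprox

namespace Vale.Agent.H13.P069

open Set Filter Topology
open scoped ENNReal

theorem psum_cut (z : ℕ × List ℕ → ℝ) (K n : ℕ) (l : List ℕ) :
    psum (fun l => if n < K then z (n, l) else 0) l =
      if n < K then psum (fun l => z (n, l)) l else 0 := by
  by_cases h : n < K
  · simp [h]
  · simp [h, psum_zero]

/-- Restriction to the components with index `< K`. -/
noncomputable def cut (K : ℕ) (w : Y) : Y :=
  mkY (fun p => if p.1 < K then cz w p else 0)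
    (Summable.of_nonneg_of_le (fun p => by positivity) (fun p => by
      split_ifs
      · exact le_rfl
      · rw [zero_pow two_ne_zero]; positivity) (summable_cz w))
    (fun n l hl => by simp only [cz_eq_zero w hl, ite_self])
    (fun n => S w n) (summable_S w)
    (fun n l => by
      rw [psum_cut]
      split_ifs
      · exact abs_ps_le w n l
      · rw [abs_zero]; exact S_nonneg _ _)

theorem cz_cut (K : ℕ) (w : Y) (p) : cz (cut K w) p = if p.1 < K then cz w p else 0 := rfl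

theorem S_cut_lt {K n : ℕ} (h : n < K) (w : Y) : S (cut K w) n = S w n := by
  apply S_congr
  intro l
  rw [cz_cut, if_pos h]

theorem S_cut_ge {K n : ℕ} (h : K ≤ n) (w : Y) : S (cut K w) n = 0 := by
  rw [← S_zero n]
  apply S_congr
  intro l
  rw [cz_cut, if_neg (by simpa using h), cz_zero]

theorem S_sub_cut_lt {K n : ℕ} (h : n < K) (w : Y) : S (w - cut K w) n = 0 := by
  rw [← S_zero n]
  apply S_congr
  intro l
  rw [cz_sub, cz_cut, if_pos h, cz_zero, sub_self]

theorem S_sub_cut_ge {K n : ℕ} (h : K ≤ n) (w : Y) : S (w - cut K w) n = S w n := by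
  apply S_congr
  intro l
  rw [cz_sub, cz_cut, if_neg (by simpa using h), sub_zero]

theorem norm_sub_cut_le (K : ℕ) (w : Y) : ‖w - cut K w‖ ≤ ‖w‖ := by
  have h : ‖w - cut K w‖ ^ 2 ≤ ‖(0 : Y)‖ ^ 2 + 1 * ‖w‖ ^ 2 := by
    apply norm_sq_le_of_pointwise _ _ zero_le_one
    · intro p
      rw [cz_sub, cz_cut, cz_zero]
      split_ifs
      · rw [sub_self]; nlinarith [sq_nonneg (cz w p)]
      · rw [sub_zero]; nlinarith
    · intro n
      rw [S_zero]
      by_cases hn : n < K
      · rw [S_sub_cut_lt hn]; nlinarith [sq_nonneg (S w n)]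
      · rw [S_sub_cut_ge (by omega)]; nlinarith
  rw [norm_zero] at h
  exact le_of_sq_le_sq (by nlinarith) (norm_nonneg _)
where
  le_of_sq_le_sq {a b : ℝ} (h : a ^ 2 ≤ b ^ 2) (hb : 0 ≤ b) : a ≤ b :=
    (abs_le_of_sq_le_sq' h hb).2

/-- In finitely many components the norm of `Y` is controlled by the `ℓ₂` norm. -/
theorem norm_sq_le_of_supp {K : ℕ} {w : Y} (hw : ∀ n l, K ≤ n → cz w (n, l) = 0) :
    ‖w‖ ^ 2 ≤ ((K : ℝ) ^ 2 + 1) * ∑' p, cz w p ^ 2 := by
  have h0 : 0 ≤ ∑' p, cz w p ^ 2 := tsum_nonneg fun p => by positivity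
  apply sq_norm_le_of
  · nlinarith [sq_nonneg (K : ℝ)]
  · have hS : ∀ n, n ∉ Finset.range K → S w n ^ 2 = 0 := by
      intro n hn
      rw [Finset.mem_range, not_lt] at hn
      have : S w n = 0 := by
        rw [← S_zero n]
        apply S_congr
        intro l
        rw [hw n l hn, cz_zero]
      rw [this]; norm_num
    rw [tsum_eq_sum hS]
    calc ∑ n ∈ Finset.range K, S w n ^ 2 ≤ ∑ n ∈ Finset.range K, (K : ℝ) * ∑' p, cz w p ^ 2 := by
          apply Finset.sum_le_sum
          intro n hn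
          rw [Finset.mem_range] at hn
          refine (sq_S_le w n).trans ?_
          have : ((n : ℝ) + 1) ≤ K := by exact_mod_cast hn
          gcongr
      _ = K * ((K : ℝ) * ∑' p, cz w p ^ 2) := by simp
      _ ≤ _ := by nlinarith

theorem tsum_cz_add_smul_le {z w : Y} {β : ℝ} (h : ∀ p, cz z p = 0 ∨ cz w p = 0) :
    ∑' p, cz (z + β • w) p ^ 2 = ∑' p, cz z p ^ 2 + β ^ 2 * ∑' p, cz w p ^ 2 := by
  have h1 : ∀ p, cz (z + β • w) p ^ 2 = cz z p ^ 2 + β ^ 2 * cz w p ^ 2 := by
    intro p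
    rw [cz_add, cz_smul]
    rcases h p with h | h <;> rw [h] <;> ring
  simp only [h1]
  rw [(summable_cz z).tsum_add ((summable_cz w).mul_left _), tsum_mul_left]

theorem tsum_cz_smul (c : ℝ) (w : Y) :
    ∑' p, cz (c • w) p ^ 2 = c ^ 2 * ∑' p, cz w p ^ 2 := by
  have h1 : ∀ p, cz (c • w) p ^ 2 = c ^ 2 * cz w p ^ 2 := by
    intro p
    rw [cz_smul]; ring
  simp only [h1]
  rw [tsum_mul_left]

/-- second step: finitely many components -/
theorem exists_small (x : StrongDual ℝ Y) (K : ℕ) {ε : ℝ} (hε : 0 < ε) :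
    ∃ F, IsTree F ∧ ∀ w : Y, (∀ n l, K ≤ n → cz w (n, l) = 0) → (∀ p ∈ F, cz w p = 0) →
      |x w| ≤ ε * ‖w‖ := by
  set A : Set ℝ := {r | ∃ w : Y, (∀ n l, K ≤ n → cz w (n, l) = 0) ∧ ∑' p, cz w p ^ 2 ≤ 1 ∧
    r = x w} with hA
  have hAne : A.Nonempty := ⟨0, 0, fun n l _ => rfl, by simp [cz_zero], by simp⟩
  have hAb : BddAbove A := by
    refine ⟨‖x‖ * √((K : ℝ) ^ 2 + 1), ?_⟩
    rintro r ⟨w, hw1, hw2, rfl⟩
    calc x w ≤ |x w| := le_abs_self _
      _ ≤ ‖x‖ * ‖w‖ := x.le_opNorm _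
      _ ≤ _ := by
          gcongr
          apply Real.le_sqrt_of_sq_le
          refine (norm_sq_le_of_supp hw1).trans ?_
          have : (0 : ℝ) ≤ (K : ℝ) ^ 2 + 1 := by positivity
          nlinarith
  set M := sSup A with hM
  have hM0 : 0 ≤ M := le_csSup hAb ⟨0, fun n l _ => rfl, by simp [cz_zero], by simp⟩
  set β := ε / (M + 1) with hβ
  have hβ0 : 0 < β := by positivity
  set δ := β * ε / 2 with hδ
  have hδ0 : 0 < δ := by positivity
  obtain ⟨r, ⟨z, hz0, hz1, rfl⟩, hz2⟩ := exists_lt_of_lt_csSup hAne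
    (show M - δ / 2 < sSup A by linarith)
  obtain ⟨F, hF, hFz⟩ := exists_tree_approx z (ε := δ / (2 * (‖x‖ + 1))) (by positivity)
  have hz'1 : ∑' p, cz (P F z) p ^ 2 ≤ 1 := by
    refine le_trans ?_ hz1
    apply Summable.tsum_le_tsum _ (summable_cz _) (summable_cz _)
    intro p
    rw [cz_P hF]
    split_ifs
    · exact le_rfl
    · rw [zero_pow two_ne_zero]; positivity
  have hz'0 : ∀ n l, K ≤ n → cz (P F z) (n, l) = 0 := by
    intro n l hn
    rw [cz_P hF, hz0 n l hn, ite_self]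
  have hz'2 : M - δ ≤ x (P F z) := by
    have h1 : |x (z - P F z)| ≤ ‖x‖ * (δ / (2 * (‖x‖ + 1))) := by
      refine (x.le_opNorm _).trans ?_
      gcongr
    have h2 : ‖x‖ * (δ / (2 * (‖x‖ + 1))) ≤ δ / 2 := by
      rw [mul_div_assoc', div_le_div_iff₀ (by positivity) (by positivity)]
      nlinarith [norm_nonneg x]
    rw [map_sub] at h1
    have := (abs_le.1 h1).2
    linarith
  refine ⟨F, hF, ?_⟩
  have key : ∀ w : Y, ∑' p, cz w p ^ 2 ≤ 1 → (∀ n l, K ≤ n → cz w (n, l) = 0) →
      (∀ p ∈ F, cz w p = 0) → x w ≤ ε := by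
    intro w hw hwK hwF
    set ρ := √(1 + β ^ 2) with hρ
    have hρ0 : 0 < ρ := by positivity
    have hmem : x (ρ⁻¹ • (P F z + β • w)) ∈ A := by
      refine ⟨_, ?_, ?_, rfl⟩
      · intro n l hn
        rw [cz_smul, cz_add, cz_smul, hz'0 n l hn, hwK n l hn]; ring
      · rw [tsum_cz_smul, tsum_cz_add_smul_le]
        · have h1 : ∑' p, cz (P F z) p ^ 2 + β ^ 2 * ∑' p, cz w p ^ 2 ≤ ρ ^ 2 := by
            rw [hρ, Real.sq_sqrt (by positivity)]
            have : 0 ≤ β ^ 2 := by positivity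
            nlinarith
          rw [inv_pow, inv_mul_le_iff₀ (by positivity), mul_one]
          exact h1
        · intro p
          by_cases hp : p ∈ F
          · right; exact hwF p hp
          · left; rw [cz_P hF, if_neg hp]
    have h3 : ρ⁻¹ * (x (P F z) + β * x w) ≤ M := by
      have := le_csSup hAb hmem
      rw [map_smul, map_add, map_smul, smul_eq_mul, smul_eq_mul] at this
      exact this
    have h4 : x (P F z) + β * x w ≤ M * √(1 + β ^ 2) := by
      rw [inv_mul_le_iff₀ hρ0] at h3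
      linarith
    have h5 := trick hM0 hβ0 hz'2 h4
    have h6 : δ / β = ε / 2 := by rw [hδ]; field_simp
    have h7 : M * β / 2 ≤ ε / 2 := by
      have : M * β ≤ ε := by
        rw [hβ, mul_div_assoc', div_le_iff₀ (by positivity)]
        nlinarith
      linarith
    linarith
  intro w hwK hwF
  set q := ∑' p, cz w p ^ 2 with hq
  have hq0 : 0 ≤ q := tsum_nonneg fun p => by positivity
  rcases hq0.eq_or_lt with hq1 | hq1
  · have : w = 0 := by
      have h1 := norm_sq_le_of_supp hwK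
      rw [← hq, ← hq1, mul_zero] at h1
      have : ‖w‖ = 0 := by
        have := norm_nonneg w
        nlinarith
      exact norm_eq_zero.1 this
    rw [this]; simp
  · have hsq : 0 < √q := Real.sqrt_pos.2 hq1
    have hk : ∀ s : ℝ, |s| = 1 → s * x w ≤ ε * √q := by
      intro s hs
      have hs2 : s ^ 2 = 1 := by rw [← sq_abs, hs]; norm_num
      have h1 := key ((s * (√q)⁻¹) • w) (by
        rw [tsum_cz_smul, mul_pow, hs2, one_mul, inv_pow, Real.sq_sqrt hq0,
          inv_mul_cancel₀ hq1.ne']) (by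
        intro n l hn
        rw [cz_smul, hwK n l hn, mul_zero]) (by
        intro p hp
        rw [cz_smul, hwF p hp, mul_zero])
      rw [map_smul, smul_eq_mul] at h1
      have h2 : s * x w = (s * (√q)⁻¹ * x w) * √q := by field_simp
      rw [h2]
      gcongr
    have h3 : √q ≤ ‖w‖ := by
      rw [Real.sqrt_le_left (norm_nonneg _)]
      exact tsum_cz_le w
    have h4 : ε * √q ≤ ε * ‖w‖ := by gcongr
    rw [abs_le']
    exact ⟨(by simpa using hk 1 (by simp) : x w ≤ ε * √q).trans h4,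
      (by simpa using hk (-1) (by simp) : - x w ≤ ε * √q).trans h4⟩

/-- (Y6) -/
theorem exists_tree_dual (x : StrongDual ℝ Y) {ε : ℝ} (hε : 0 < ε) :
    ∃ F, IsTree F ∧ ∀ w : Y, (∀ p ∈ F, cz w p = 0) → |x w| ≤ ε * ‖w‖ := by
  obtain ⟨K, hK⟩ := exists_large x (show 0 < ε / 3 by positivity)
  obtain ⟨F, hF, hFx⟩ := exists_small x K (show 0 < ε / 3 by positivity)
  refine ⟨F, hF, ?_⟩
  intro w hw
  have h1 : |x (w - cut K w)| ≤ ε / 3 * ‖w‖ := by
    refine (hK _ ?_).trans ?_
    · intro n l hn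
      rw [cz_sub, cz_cut, if_pos hn, sub_self]
    · have := norm_sub_cut_le K w
      gcongr
  have hcut : ‖cut K w‖ ≤ 2 * ‖w‖ := by
    have h := norm_sub_cut_le K w
    have h2 : cut K w = w - (w - cut K w) := by abel
    rw [h2]
    refine (norm_sub_le _ _).trans ?_
    linarith
  have h2 : |x (cut K w)| ≤ ε / 3 * (2 * ‖w‖) := by
    refine (hFx _ ?_ ?_).trans ?_
    · intro n l hn
      rw [cz_cut, if_neg (by simpa using hn)]
    · intro p hp
      rw [cz_cut, hw p hp, ite_self]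
    · gcongr
  have h3 : x w = x (w - cut K w) + x (cut K w) := by
    rw [← map_add]; congr 1; abel
  rw [h3]
  refine (abs_add_le _ _).trans ?_
  linarith

end Vale.Agent.H13.P069
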