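import Vale.Agent.H13.P069.Moduli

/-!
Bounded weakly null trees of unbounded height exclude an equivalent AUC norm.
-/

namespace Vale.Agent.H13.P069

open Set Filter Topology

variable {X : Type*} [NormedAddCommGroup X] [NormedSpace ℝ X]

/-- A weakly null sequence is asymptotically in every closed subspace of finite codimension. -/
theorem weaklyNull_near_cof (F : Cof X) (v : ℕ → X)
    (hv : ∀ Φ : StrongDual ℝ X, Tendsto (fun k => Φ (v k)) atTop (𝓝 0)) :
    ∃ y : ℕ → X, (∀ k, y k ∈ F.1) ∧ Tendsto (fun k => v k - y k) atTop (𝓝 0) := by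
  obtain ⟨F, hFc, hFd⟩ := F
  obtain ⟨q, hq⟩ : ∃ q, IsCompl F q := F.exists_isCompl
  have htop : Submodule.IsTopCompl F q :=
    Submodule.IsCompl.isTopCompl_of_finiteDimensional_quotient hq hFc
  have hqf : FiniteDimensional ℝ q := (F.quotientEquivOfIsCompl q hq).finiteDimensional
  set Q : X →L[ℝ] q := q.projectionOntoL F htop.symm with hQ
  have hmem : ∀ x : X, x - (Q x : X) ∈ F := by
    intro x
    have h1 : Q (x - (Q x : X)) = 0 := by
      rw [map_sub, hQ, Submodule.projectionOntoL_apply_left htop.symm, sub_self]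
    exact (Submodule.projectionOntoL_apply_eq_zero_iff htop.symm).1 h1
  refine ⟨fun k => v k - (Q (v k) : X), fun k => hmem _, ?_⟩
  have h0 : Tendsto (fun k => Q (v k)) atTop (𝓝 0) := by
    set b := Module.finBasis ℝ q with hb
    have hco : ∀ i, Tendsto (fun k => b.coord i (Q (v k))) atTop (𝓝 0) := by
      intro i
      set ℓ : q →L[ℝ] ℝ := LinearMap.toContinuousLinearMap (b.coord i) with hℓ
      exact hv (ℓ.comp Q)
    have hsum : ∀ k, Q (v k) = ∑ i, (b.coord i (Q (v k))) • b i := by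
      intro k
      exact (b.sum_repr (Q (v k))).symm
    have : Tendsto (fun k => ∑ i, (b.coord i (Q (v k))) • b i) atTop
        (𝓝 (∑ i, (0 : ℝ) • b i)) := by
      apply tendsto_finsetSum
      intro i _
      exact (hco i).smul_const (b i)
    simp only [zero_smul, Finset.sum_const_zero] at this
    refine this.congr ?_
    intro k
    exact (hsum k).symm
  have h1 : Tendsto (fun k => ((Q (v k) : q) : X)) atTop (𝓝 ((0 : q) : X)) :=
    (continuous_subtype_val.tendsto _).comp h0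
  simpa using h1

theorem step (N : Seminorm ℝ X) {a b B c : ℝ} (ha : 0 < a) (hb : 0 < b) (hB : 0 < B)
    (hc : 0 < c) (hab : ∀ x, a * ‖x‖ ≤ N x ∧ N x ≤ b * ‖x‖)
    (h : ∀ x, N x = 1 → ∃ F : Cof X, ∀ y ∈ F.1, N y = 1 → 1 + c ≤ N (x + (a / (2 * B)) • y))
    (x : X) (hx0 : 0 < N x) (hxB : N x ≤ B) (v : ℕ → X) (hv1 : ∀ k, 1 ≤ ‖v k‖)
    (hv : ∀ Φ : StrongDual ℝ X, Tendsto (fun k => Φ (v k)) atTop (𝓝 0)) :
    ∃ k, (1 + c / 2) * N x ≤ N (x + v k) := by
  set r := N x with hr
  set t := a / (2 * B) with ht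
  have htpos : 0 < t := by positivity
  have hx1 : N (r⁻¹ • x) = 1 := by
    rw [map_smul_eq_mul, Real.norm_eq_abs, abs_of_pos (inv_pos.2 hx0), ← hr]
    exact inv_mul_cancel₀ hx0.ne'
  obtain ⟨F, hF⟩ := h _ hx1
  obtain ⟨y, hyF, hy⟩ := weaklyNull_near_cof F v hv
  have hev : ∀ᶠ k in atTop, ‖v k - y k‖ < min (a / (2 * b)) (r * c / (2 * b)) := by
    have := hy.norm
    rw [norm_zero] at this
    exact this.eventually_lt_const (by positivity)
  obtain ⟨k, hk⟩ := hev.exists
  have hk1 : b * ‖v k - y k‖ ≤ a / 2 := by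
    have h1 : ‖v k - y k‖ ≤ a / (2 * b) := le_of_lt (lt_of_lt_of_le hk (min_le_left _ _))
    calc b * ‖v k - y k‖ ≤ b * (a / (2 * b)) := by gcongr
      _ = a / 2 := by field_simp
  have hk2 : b * ‖v k - y k‖ ≤ r * c / 2 := by
    have h1 : ‖v k - y k‖ ≤ r * c / (2 * b) := le_of_lt (lt_of_lt_of_le hk (min_le_right _ _))
    calc b * ‖v k - y k‖ ≤ b * (r * c / (2 * b)) := by gcongr
      _ = r * c / 2 := by field_simp
  refine ⟨k, ?_⟩
  have hNv : a ≤ N (v k) := by
    have := (hab (v k)).1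
    nlinarith [hv1 k]
  have hNd : N (v k - y k) ≤ b * ‖v k - y k‖ := (hab _).2
  have hNy : a / 2 ≤ N (y k) := by
    have : N (v k) ≤ N (v k - y k) + N (y k) := by
      calc N (v k) = N ((v k - y k) + y k) := by congr 1; abel
        _ ≤ _ := map_add_le_add N _ _
    linarith
  set s := N (y k) with hs
  have hspos : 0 < s := by linarith [half_pos ha]
  have hy1 : N (s⁻¹ • y k) = 1 := by
    rw [map_smul_eq_mul, Real.norm_eq_abs, abs_of_pos (inv_pos.2 hspos), ← hs]
    exact inv_mul_cancel₀ hspos.ne'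
  have hmain := hF _ (F.1.smul_mem s⁻¹ (hyF k)) hy1
  -- convexity
  set τ := s / r with hτ
  have hτt : t ≤ τ := by
    rw [ht, hτ, div_le_div_iff₀ (by positivity) hx0]
    have : a * r ≤ a * B := by gcongr
    nlinarith
  have hτpos : 0 < τ := lt_of_lt_of_le htpos hτt
  have hconv : N (r⁻¹ • x + t • (s⁻¹ • y k)) ≤
      (1 - t / τ) * 1 + (t / τ) * N (r⁻¹ • x + τ • (s⁻¹ • y k)) := by
    have hq : r⁻¹ • x + t • (s⁻¹ • y k) =
        (1 - t / τ) • (r⁻¹ • x) + (t / τ) • (r⁻¹ • x + τ • (s⁻¹ • y k)) := by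
      have : t / τ * τ = t := div_mul_cancel₀ _ hτpos.ne'
      rw [smul_add, smul_smul (t / τ) τ, this]
      module
    have h0 : 0 ≤ 1 - t / τ := by
      rw [sub_nonneg, div_le_one hτpos]
      exact hτt
    have h0' : 0 ≤ t / τ := by positivity
    calc N (r⁻¹ • x + t • (s⁻¹ • y k))
        = N ((1 - t / τ) • (r⁻¹ • x) + (t / τ) • (r⁻¹ • x + τ • (s⁻¹ • y k))) := by rw [← hq]
      _ ≤ N ((1 - t / τ) • (r⁻¹ • x)) + N ((t / τ) • (r⁻¹ • x + τ • (s⁻¹ • y k))) :=
          map_add_le_add N _ _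
      _ = (1 - t / τ) * 1 + (t / τ) * N (r⁻¹ • x + τ • (s⁻¹ • y k)) := by
          rw [map_smul_eq_mul N (1 - t / τ), map_smul_eq_mul N (t / τ), Real.norm_eq_abs,
            Real.norm_eq_abs, abs_of_nonneg h0, abs_of_nonneg h0', hx1]
  have hge : 1 + c ≤ N (r⁻¹ • x + τ • (s⁻¹ • y k)) := by
    set θ := t / τ with hθ
    have hθ1 : θ ≤ 1 := by rw [hθ, div_le_one hτpos]; exact hτt
    have hθ0 : 0 < θ := by positivity
    set M := N (r⁻¹ • x + τ • (s⁻¹ • y k)) with hM
    have h1 : c ≤ θ * (M - 1) := by linarith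
    have hM1 : 0 ≤ M - 1 := by
      by_contra hneg
      push Not at hneg
      nlinarith
    nlinarith
  have hxy : N (x + y k) = r * N (r⁻¹ • x + τ • (s⁻¹ • y k)) := by
    have : x + y k = r • (r⁻¹ • x + τ • (s⁻¹ • y k)) := by
      rw [smul_add, smul_smul, smul_smul, smul_smul, mul_inv_cancel₀ hx0.ne', one_smul]
      have : r * τ * s⁻¹ = 1 := by
        rw [hτ]; field_simp
      rw [this, one_smul]
    rw [this, map_smul_eq_mul, Real.norm_eq_abs, abs_of_pos hx0]
  have hfin : N (x + y k) ≤ N (x + v k) + N (v k - y k) := by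
    calc N (x + y k) = N ((x + v k) - (v k - y k)) := by congr 1; abel
      _ ≤ _ := map_sub_le_add N _ _
  have : r * (1 + c) ≤ N (x + y k) := by
    rw [hxy]; gcongr
  nlinarith

theorem not_aucRenormable_of_trees {C : ℝ} (hC : 0 < C)
    (h : ∀ n : ℕ, ∃ g : List ℕ → X, 1 ≤ ‖g []‖ ∧ (∀ l, l.length ≤ n → ‖g l‖ ≤ C) ∧
      (∀ l k, l.length < n → 1 ≤ ‖g (k :: l) - g l‖) ∧
      ∀ l, l.length < n → ∀ Φ : StrongDual ℝ X,
        Tendsto (fun k => Φ (g (k :: l) - g l)) atTop (𝓝 0)) :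
    ¬ AUCRenormable X := by
  rintro ⟨N, ⟨a, b, ha, hb, hab⟩, hN⟩
  set B := b * C with hB
  have hBpos : 0 < B := by positivity
  obtain ⟨c, hc, hspec⟩ := auc_spec N (hN (a / (2 * B)) (by positivity))
  obtain ⟨n, hn⟩ : ∃ n : ℕ, B / a < (1 + c / 2) ^ n :=
    pow_unbounded_of_one_lt _ (by linarith)
  obtain ⟨g, hg0, hgC, hg1, hgw⟩ := h n
  have hind : ∀ j : ℕ, j ≤ n → ∃ l : List ℕ, l.length = j ∧ a * (1 + c / 2) ^ j ≤ N (g l) := by
    intro j
    induction j with
    | zero =>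
      intro _
      refine ⟨[], rfl, ?_⟩
      have := (hab (g [])).1
      simp only [pow_zero, mul_one]
      nlinarith
    | succ j ih =>
      intro hj
      obtain ⟨l, hl, hNl⟩ := ih (by omega)
      have hlt : l.length < n := by omega
      have hpos : 0 < N (g l) := lt_of_lt_of_le (by positivity) hNl
      have hle : N (g l) ≤ B := by
        refine le_trans (hab _).2 ?_
        rw [hB]
        gcongr
        exact hgC l (by omega)
      obtain ⟨k, hk⟩ := step N ha hb hBpos hc hab hspec (g l) hpos hle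
        (fun k => g (k :: l) - g l) (fun k => hg1 l k hlt) (hgw l hlt)
      refine ⟨k :: l, by simp [hl], ?_⟩
      have he : g l + (g (k :: l) - g l) = g (k :: l) := by abel
      simp only [he] at hk
      calc a * (1 + c / 2) ^ (j + 1) = (1 + c / 2) * (a * (1 + c / 2) ^ j) := by ring
        _ ≤ (1 + c / 2) * N (g l) := by gcongr
        _ ≤ N (g (k :: l)) := hk
  obtain ⟨l, hl, hNl⟩ := hind n le_rfl
  have hle : N (g l) ≤ B := by
    refine le_trans (hab _).2 ?_
    rw [hB]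
    gcongr
    exact hgC l (by omega)
  rw [div_lt_iff₀ ha] at hn
  nlinarith

end Vale.Agent.H13.P069
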