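import Vale.Agent.H13.P069.Amuc
import Vale.Agent.H13.P069.Trees

/-!
Assembly: `X = Y*`.
-/

namespace Vale.Agent.H13.P069

open Set Filter Topology
open scoped ENNReal

/-- Branch functionals. -/
noncomputable def gf (n : ℕ) (l : List ℕ) : StrongDual ℝ Y :=
  (Ic l).comp ((Lc n).comp ((ContinuousLinearMap.snd ℝ Hsp Lsp).comp toE))

theorem gf_apply (n l) (v : Y) : gf n l v = ps v n l := ps_eq v n l

theorem norm_gf_le (n l) : ‖gf n l‖ ≤ 1 := by
  apply ContinuousLinearMap.opNorm_le_bound _ zero_le_one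
  intro v
  rw [gf_apply, one_mul]
  exact (abs_ps_le v n l).trans (S_le_norm v n)

theorem one_le_norm_ev {t : ℕ × List ℕ} (h : t.2.length ≤ t.1) : 1 ≤ ‖ev t‖ := by
  have h1 : ev t (e t) = 1 := by rw [ev_apply, cz_e h, if_pos rfl]
  have h2 := (ev t).le_opNorm (e t)
  rw [h1, norm_one] at h2
  have h3 := norm_e_le t
  have h4 := norm_nonneg (ev t)
  nlinarith

theorem gf_sub (n k : ℕ) (l : List ℕ) : gf n (k :: l) - gf n l = ev (n, k :: l) := by
  ext v
  rw [_root_.sub_apply, gf_apply, gf_apply, ev_apply, ps_cons]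
  ring

theorem tendsto_cz (v : Y) (n : ℕ) (l : List ℕ) :
    Tendsto (fun k : ℕ => cz v (n, k :: l)) atTop (𝓝 0) := by
  have hinj : Function.Injective fun k : ℕ => ((n, k :: l) : ℕ × List ℕ) := by
    intro a b hab
    simpa using hab
  have h1 : Summable fun k : ℕ => cz v (n, k :: l) ^ 2 :=
    (summable_cz v).comp_injective hinj
  have h2 := h1.tendsto_atTop_zero
  rw [tendsto_zero_iff_abs_tendsto_zero]
  have h3 := (Real.continuous_sqrt.tendsto _).comp h2
  simp only [Real.sqrt_zero] at h3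
  refine h3.congr ?_
  intro k
  simp only [Function.comp_apply]
  exact Real.sqrt_sq_eq_abs _

theorem tendsto_ev (n : ℕ) (l : List ℕ) (Φ : StrongDual ℝ (StrongDual ℝ Y)) :
    Tendsto (fun k : ℕ => Φ (ev (n, k :: l))) atTop (𝓝 0) := by
  have : ∀ k : ℕ, Φ (ev (n, k :: l)) = cz (zY Φ) (n, k :: l) := by
    intro k
    rw [zY_spec Φ, ev_apply]
  simp only [this]
  exact tendsto_cz _ n l

theorem not_auc : ¬ AUCRenormable (StrongDual ℝ Y) := by
  apply not_aucRenormable_of_trees (C := 1) one_pos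
  intro n
  refine ⟨gf n, ?_, fun l _ => norm_gf_le n l, ?_, ?_⟩
  · have : gf n [] = ev (n, []) := by
      ext v
      rw [gf_apply, ev_apply, ps_nil]
    rw [this]
    exact one_le_norm_ev (by simp)
  · intro l k hl
    rw [gf_sub]
    exact one_le_norm_ev (by simpa using hl)
  · intro l _ Φ
    simp only [gf_sub]
    exact tendsto_ev n l Φ

theorem not_finiteDimensional : ¬ FiniteDimensional ℝ (StrongDual ℝ Y) := by
  intro hfd
  set F : Cof (StrongDual ℝ Y) := ⟨⊥, by simp, inferInstance⟩ with hF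
  obtain ⟨y, hy, hty⟩ := weaklyNull_near_cof F (fun k : ℕ => ev (1, [k])) (fun Φ => tendsto_ev 1 [] Φ)
  have hy0 : ∀ k, y k = 0 := fun k => (Submodule.mem_bot ℝ).1 (hy k)
  simp only [hy0, sub_zero] at hty
  have h1 := hty.norm
  rw [norm_zero] at h1
  have h2 := (h1.eventually_lt_const one_pos).exists
  obtain ⟨k, hk⟩ := h2
  have := one_le_norm_ev (t := (1, [k])) (by simp)
  linarith

/-- Functionals vanishing on the unit vectors of a finite set. -/
noncomputable def evalF (F : Finset (ℕ × List ℕ)) : StrongDual ℝ Y →L[ℝ] (F → ℝ) :=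
  ContinuousLinearMap.pi fun p => ContinuousLinearMap.apply ℝ ℝ (e p.1)

theorem evalF_apply (F : Finset (ℕ × List ℕ)) (y : StrongDual ℝ Y) (p : F) :
    evalF F y p = y (e p.1) := rfl

noncomputable def cofF (F : Finset (ℕ × List ℕ)) : Cof (StrongDual ℝ Y) :=
  ⟨(evalF F).ker, (evalF F).isClosed_ker,
    (evalF F).toLinearMap.quotKerEquivRange.symm.finiteDimensional⟩

theorem mem_cofF {F : Finset (ℕ × List ℕ)} {y : StrongDual ℝ Y} (hy : y ∈ (cofF F).1) :
    ∀ p ∈ F, y (e p) = 0 := by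
  intro p hp
  have h1 : evalF F y = 0 := hy
  have := congrFun h1 ⟨p, hp⟩
  exact this

theorem isAMUC : IsAMUC (normSeminorm ℝ (StrongDual ℝ Y)) := by
  intro t ht
  have hc : 0 < (√(1 + t ^ 2 / 64) - 1) / 2 := by
    have : 1 < √(1 + t ^ 2 / 64) := by
      rw [Real.lt_sqrt (by norm_num)]
      have : 0 < t ^ 2 / 64 := by positivity
      linarith
    linarith
  apply amuc_of not_finiteDimensional (normSeminorm ℝ (StrongDual ℝ Y))
    ⟨1, 1, one_pos, one_pos, fun x => by simp⟩ ht hc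
  intro x hx
  obtain ⟨F, hF, h⟩ := amuc_core x hx ht
  exact ⟨cofF F, fun y hy hy1 => h y hy1 (mem_cofF hy)⟩

theorem separable : TopologicalSpace.SeparableSpace (StrongDual ℝ Y) := by
  rw [← TopologicalSpace.isSeparable_univ_iff]
  have h1 : TopologicalSpace.IsSeparable (range ev) := (countable_range ev).isSeparable
  have h2 : TopologicalSpace.IsSeparable (Submodule.span ℝ (range ev) : Set (StrongDual ℝ Y)) :=
    h1.span
  refine h2.closure.mono ?_
  intro x _
  rw [Metric.mem_closure_iff]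
  intro ε hε
  obtain ⟨F, hF, -, hx⟩ := exists_tree_norm x (show 0 < ε / 4 by positivity)
  refine ⟨x.comp (P F), ?_, ?_⟩
  · rw [comp_P_apply]
    apply Submodule.sum_mem
    intro t _
    exact Submodule.smul_mem _ _ (Submodule.subset_span ⟨t, rfl⟩)
  · rw [dist_eq_norm]
    linarith

end Vale.Agent.H13.P069
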