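import Vale.Agent.H13.P069.Defs

/-!
Working with the moduli.
-/

namespace Vale.Agent.H13.P069

open Set

variable {X : Type*} [NormedAddCommGroup X] [NormedSpace ℝ X]

/-- What a positive AUC modulus gives. -/
theorem auc_spec (N : Seminorm ℝ X) {t : ℝ} (h : 0 < aucModulus N t) :
    ∃ c : ℝ, 0 < c ∧ ∀ x, N x = 1 → ∃ F : Cof X, ∀ y ∈ F.1, N y = 1 → 1 + c ≤ N (x + t • y) := by
  set δ := aucModulus N t with hδ
  refine ⟨δ / 2, by positivity, ?_⟩
  intro x hx
  -- inner function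
  set f : {x : X // N x = 1} → ℝ := fun x => ⨆ F : Cof X, ⨅ y : {y : X // y ∈ F.1 ∧ N y = 1},
    (N (x.1 + t • y.1) - 1) with hf
  have h1 : δ = ⨅ x, f x := rfl
  have hbdd : BddBelow (range f) := by
    by_contra hb
    have : (⨅ x, f x) = 0 := Real.iInf_of_not_bddBelow hb
    rw [h1, this] at h
    exact lt_irrefl _ h
  have h2 : δ ≤ f ⟨x, hx⟩ := by rw [h1]; exact ciInf_le hbdd _
  have h3 : δ / 2 < f ⟨x, hx⟩ := by linarith
  haveI : Nonempty (Cof X) := by
    refine ⟨⟨⊤, by simpa using isClosed_univ, ?_⟩⟩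
    infer_instance
  obtain ⟨F, hF⟩ := exists_lt_of_lt_ciSup h3
  refine ⟨F, ?_⟩
  intro y hy hy1
  set g : {y : X // y ∈ F.1 ∧ N y = 1} → ℝ := fun y => (N (x + t • y.1) - 1) with hg
  have hF' : δ / 2 < ⨅ y, g y := hF
  have hb2 : BddBelow (range g) := by
    by_contra hb
    have : (⨅ y, g y) = 0 := Real.iInf_of_not_bddBelow hb
    rw [this] at hF'
    linarith
  have h4 : (⨅ y, g y) ≤ g ⟨y, hy, hy1⟩ := ciInf_le hb2 _
  have h5 : g ⟨y, hy, hy1⟩ = N (x + t • y) - 1 := rfl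
  linarith

/-- Non-triviality of finite codimensional subspaces in infinite dimension. -/
theorem exists_mem_cof (hX : ¬ FiniteDimensional ℝ X) (F : Submodule ℝ X)
    (hF : FiniteDimensional ℝ (X ⧸ F)) : ∃ y ∈ F, y ≠ 0 := by
  by_contra hcon
  push Not at hcon
  have hbot : F = ⊥ := by
    rw [Submodule.eq_bot_iff]
    exact hcon
  subst hbot
  apply hX
  exact LinearEquiv.finiteDimensional (Submodule.quotEquivOfEqBot (⊥ : Submodule ℝ X) rfl)

theorem amuc_of (hX : ¬ FiniteDimensional ℝ X) (N : Seminorm ℝ X) (hN : IsEquivNorm N)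
    {t : ℝ} (ht : 0 < t) {c : ℝ} (hc : 0 < c)
    (h : ∀ x, N x = 1 → ∃ F : Cof X, ∀ y ∈ F.1, N y = 1 →
      1 + c ≤ max (N (x + t • y)) (N (x - t • y))) : 0 < amucModulus N t := by
  obtain ⟨a, b, ha, hb, hab⟩ := hN
  have hpos : ∀ x : X, x ≠ 0 → 0 < N x := by
    intro x hx
    have := (hab x).1
    have h2 : 0 < ‖x‖ := norm_pos_iff.2 hx
    have : 0 < a * ‖x‖ := by positivity
    linarith [(hab x).1]
  have hnorm : ∀ x : X, x ≠ 0 → N ((N x)⁻¹ • x) = 1 := by
    intro x hx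
    have h1 := hpos x hx
    rw [map_smul_eq_mul, Real.norm_eq_abs, abs_of_pos (inv_pos.2 h1)]
    exact inv_mul_cancel₀ h1.ne'
  have hne : Nonempty {x : X // N x = 1} := by
    obtain ⟨y, -, hy⟩ := exists_mem_cof hX (⊤ : Submodule ℝ X) inferInstance
    exact ⟨⟨_, hnorm y hy⟩⟩
  have hneF : ∀ F : Cof X, Nonempty {y : X // y ∈ F.1 ∧ N y = 1} := by
    intro F
    obtain ⟨y, hyF, hy⟩ := exists_mem_cof hX F.1 F.2.2
    exact ⟨⟨_, F.1.smul_mem _ hyF, hnorm y hy⟩⟩
  refine lt_of_lt_of_le hc ?_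
  unfold amucModulus
  refine le_ciInf ?_
  rintro ⟨x, hx⟩
  obtain ⟨F, hF⟩ := h x hx
  have hbdd : BddAbove (range fun F : Cof X => ⨅ y : {y : X // y ∈ F.1 ∧ N y = 1},
      (max (N (x + t • y.1)) (N (x - t • y.1)) - 1)) := by
    refine ⟨t, ?_⟩
    rintro _ ⟨G, rfl⟩
    obtain ⟨y⟩ := hneF G
    have hbb : BddBelow (range fun y : {y : X // y ∈ G.1 ∧ N y = 1} =>
        (max (N (x + t • y.1)) (N (x - t • y.1)) - 1)) := by
      refine ⟨-1, ?_⟩
      rintro _ ⟨z, rfl⟩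
      have := apply_nonneg N (x + t • z.1)
      have h2 : N (x + t • z.1) ≤ max (N (x + t • z.1)) (N (x - t • z.1)) := le_max_left _ _
      show (-1 : ℝ) ≤ max (N (x + t • z.1)) (N (x - t • z.1)) - 1
      linarith
    refine le_trans (ciInf_le hbb y) ?_
    have h1 : N (x + t • y.1) ≤ 1 + t := by
      calc N (x + t • y.1) ≤ N x + N (t • y.1) := map_add_le_add N _ _
        _ = 1 + t := by
            rw [map_smul_eq_mul, Real.norm_eq_abs, abs_of_pos ht, y.2.2, hx, mul_one]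
    have h2 : N (x - t • y.1) ≤ 1 + t := by
      calc N (x - t • y.1) ≤ N x + N (t • y.1) := map_sub_le_add N _ _
        _ = 1 + t := by
            rw [map_smul_eq_mul, Real.norm_eq_abs, abs_of_pos ht, y.2.2, hx, mul_one]
    have h3 := max_le h1 h2
    linarith
  refine le_trans ?_ (le_ciSup hbdd F)
  haveI := hneF F
  refine le_ciInf ?_
  rintro ⟨y, hy, hy1⟩
  have := hF y hy hy1
  show c ≤ max (N (x + t • y)) (N (x - t • y)) - 1
  linarith

end Vale.Agent.H13.P069
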