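import Vale.Agent.H13.P069.Space

/-!
Finite trees, the projections `P F`, and density of finitely supported vectors.
-/

namespace Vale.Agent.H13.P069

open Set Filter Topology
open scoped ENNReal

/-- Finite sets of nodes closed under passing to the parent. -/
def IsTree (F : Finset (ℕ × List ℕ)) : Prop :=
  (∀ n k (l : List ℕ), (n, k :: l) ∈ F → (n, l) ∈ F) ∧ ∀ n (l : List ℕ), (n, l) ∈ F → l.length ≤ n

/-- The tree generated by a finite set of nodes. -/
noncomputable def treeOf (G : Finset (ℕ × List ℕ)) : Finset (ℕ × List ℕ) :=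
  (G.filter fun p => p.2.length ≤ p.1).biUnion fun p => p.2.tails.toFinset.image (Prod.mk p.1)

theorem mem_treeOf {G : Finset (ℕ × List ℕ)} {n : ℕ} {l : List ℕ} :
    (n, l) ∈ treeOf G ↔ ∃ l', (n, l') ∈ G ∧ l'.length ≤ n ∧ l <:+ l' := by
  simp only [treeOf, Finset.mem_biUnion, Finset.mem_filter, Finset.mem_image, List.mem_toFinset,
    List.mem_tails, Prod.mk.injEq, Prod.exists]
  constructor
  · rintro ⟨a, b, ⟨h1, h2⟩, c, h3, rfl, rfl⟩
    exact ⟨b, h1, h2, h3⟩
  · rintro ⟨l', h1, h2, h3⟩
    exact ⟨n, l', ⟨h1, h2⟩, l, h3, rfl, rfl⟩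

theorem isTree_treeOf (G : Finset (ℕ × List ℕ)) : IsTree (treeOf G) := by
  constructor
  · intro n k l h
    rw [mem_treeOf] at h ⊢
    obtain ⟨l', h1, h2, h3⟩ := h
    exact ⟨l', h1, h2, (List.suffix_cons k l).trans h3⟩
  · intro n l h
    rw [mem_treeOf] at h
    obtain ⟨l', h1, h2, h3⟩ := h
    exact h3.length_le.trans h2

theorem mem_treeOf_self {G : Finset (ℕ × List ℕ)} {n : ℕ} {l : List ℕ} (h : (n, l) ∈ G)
    (hl : l.length ≤ n) : (n, l) ∈ treeOf G :=
  mem_treeOf.2 ⟨l, h, hl, List.suffix_refl l⟩

theorem IsTree.union {F G : Finset (ℕ × List ℕ)} (hF : IsTree F) (hG : IsTree G) :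
    IsTree (F ∪ G) := by
  constructor
  · intro n k l h
    rw [Finset.mem_union] at h ⊢
    exact h.imp (hF.1 n k l) (hG.1 n k l)
  · intro n l h
    rw [Finset.mem_union] at h
    exact h.elim (hF.2 n l) (hG.2 n l)

theorem psum_restrict_of_mem {F : Finset (ℕ × List ℕ)} (hF : IsTree F) (z : ℕ × List ℕ → ℝ)
    (n : ℕ) (l : List ℕ) (h : (n, l) ∈ F) :
    psum (fun l => if (n, l) ∈ F then z (n, l) else 0) l = psum (fun l => z (n, l)) l := by
  induction l with
  | nil => simp [h]
  | cons k l ih => simp [h, ih (hF.1 n k l h)]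

theorem psum_restrict_le {F : Finset (ℕ × List ℕ)} (hF : IsTree F) (z : ℕ × List ℕ → ℝ)
    (n : ℕ) {C : ℝ} (hC : ∀ l, |psum (fun l => z (n, l)) l| ≤ C) (l : List ℕ) :
    |psum (fun l => if (n, l) ∈ F then z (n, l) else 0) l| ≤ C := by
  induction l with
  | nil =>
    by_cases h : (n, ([] : List ℕ)) ∈ F
    · rw [psum_restrict_of_mem hF z n _ h]; exact hC _
    · simp [h]; exact (abs_nonneg _).trans (hC [])
  | cons k l ih =>
    by_cases h : (n, k :: l) ∈ F
    · rw [psum_restrict_of_mem hF z n _ h]; exact hC _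
    · simpa [h] using ih

/-- Coordinate functionals. -/
noncomputable def ev (t : ℕ × List ℕ) : Y →L[ℝ] ℝ :=
  ((Hc t).comp (ContinuousLinearMap.fst ℝ Hsp Lsp)).comp toE

theorem ev_apply (t) (v : Y) : ev t v = cz v t := rfl

theorem psum_delta (l0 l : List ℕ) :
    (0 ≤ psum (fun l => if l = l0 then (1 : ℝ) else 0) l ∧
      psum (fun l => if l = l0 then (1 : ℝ) else 0) l ≤ 1) ∧
    (l.length < l0.length → psum (fun l => if l = l0 then (1 : ℝ) else 0) l = 0) := by
  induction l with
  | nil =>
    by_cases h : [] = l0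
    · subst h; simp
    · simp [h]
  | cons k l ih =>
    by_cases h : k :: l = l0
    · have : l.length < l0.length := by rw [← h]; simp
      have h2 := ih.2 this
      rw [psum_cons, if_pos h, h2]
      refine ⟨⟨by norm_num, by norm_num⟩, ?_⟩
      intro h3
      rw [← h] at h3
      exact absurd h3 (lt_irrefl _)
    · simp only [psum_cons, h, if_false, zero_add]
      refine ⟨ih.1, ?_⟩
      intro h3
      apply ih.2
      simp only [List.length_cons] at h3
      omega

theorem psum_delta2 (n0 : ℕ) (l0 : List ℕ) (n : ℕ) (l : List ℕ) :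
    |psum (fun l => if (n, l) = (n0, l0) then (1 : ℝ) else 0) l| ≤ if n = n0 then 1 else 0 := by
  by_cases h : n = n0
  · subst h
    simp only [Prod.mk.injEq, true_and, if_true]
    rw [abs_le]
    have := (psum_delta l0 l).1
    constructor <;> linarith [this.1, this.2]
  · simp [h, psum_zero]

theorem summable_single_sq (t : ℕ × List ℕ) :
    Summable fun p => (if p = t then (1 : ℝ) else 0) ^ 2 := by
  apply summable_of_ne_finset_zero (s := {t})
  intro p hp
  have : p ≠ t := by simpa using hp
  simp [this]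

theorem summable_single_sq' (n : ℕ) :
    Summable fun p => (if p = n then (1 : ℝ) else 0) ^ 2 := by
  apply summable_of_ne_finset_zero (s := {n})
  intro p hp
  have : p ≠ n := by simpa using hp
  simp [this]

/-- Unit vectors (zero when the node is not in the tree). -/
noncomputable def e (t : ℕ × List ℕ) : Y :=
  if h : t.2.length ≤ t.1 then
    mkY (fun p => if p = t then 1 else 0) (summable_single_sq t)
      (fun n l hl => by
        have : ¬ (n, l) = t := by
          rintro rfl
          simp at h
          omega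
        simp [this])
      (fun n => if n = t.1 then 1 else 0) (summable_single_sq' t.1)
      (fun n l => psum_delta2 t.1 t.2 n l)
  else 0

theorem cz_e {t : ℕ × List ℕ} (h : t.2.length ≤ t.1) (p) :
    cz (e t) p = if p = t then 1 else 0 := by
  unfold e
  rw [dif_pos h]
  rfl

theorem norm_e_le (t : ℕ × List ℕ) : ‖e t‖ ≤ 1 := by
  by_cases h : t.2.length ≤ t.1
  · apply norm_le_of zero_le_one
    · simp only [cz_e h, one_pow]
      rw [tsum_eq_single t]
      · simp
      · intro p hp; simp [hp]
    · rw [one_pow]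
      have hS : ∀ n, S (e t) n ^ 2 ≤ (if n = t.1 then (1 : ℝ) else 0) := by
        intro n
        have h1 : S (e t) n ≤ if n = t.1 then 1 else 0 := by
          apply S_le
          intro l
          have : ps (e t) n l = psum (fun l => if (n, l) = (t.1, t.2) then (1 : ℝ) else 0) l := by
            unfold ps
            congr 1
            funext l
            rw [cz_e h]
          rw [this]
          exact psum_delta2 t.1 t.2 n l
        have h0 := S_nonneg (e t) n
        by_cases hn : n = t.1
        · simp only [hn, if_true] at h1 h0 ⊢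
          nlinarith
        · simp only [hn, if_false] at h1 ⊢
          have : S (e t) n = 0 := le_antisymm h1 h0
          rw [this]; norm_num
      calc ∑' n, S (e t) n ^ 2 ≤ ∑' n, (if n = t.1 then (1 : ℝ) else 0) := by
            apply Summable.tsum_le_tsum hS (summable_S _)
            apply summable_of_ne_finset_zero (s := {t.1})
            intro p hp
            have : p ≠ t.1 := by simpa using hp
            simp [this]
        _ = 1 := by simp
  · unfold e
    rw [dif_neg h, norm_zero]
    exact zero_le_one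

/-- The coordinate projections. -/
noncomputable def P (F : Finset (ℕ × List ℕ)) : Y →L[ℝ] Y := ∑ t ∈ F, (ev t).smulRight (e t)

theorem P_apply (F : Finset (ℕ × List ℕ)) (v : Y) : P F v = ∑ t ∈ F, cz v t • e t := by
  simp [P, ev_apply]

theorem cz_P {F : Finset (ℕ × List ℕ)} (hF : IsTree F) (v : Y) (p : ℕ × List ℕ) :
    cz (P F v) p = if p ∈ F then cz v p else 0 := by
  rw [← ev_apply, P_apply, map_sum]
  have : ∀ t ∈ F, ev p (cz v t • e t) = if p = t then cz v p else 0 := by
    intro t ht
    rw [map_smul, ev_apply, cz_e (hF.2 t.1 t.2 ht), smul_eq_mul]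
    by_cases h : p = t
    · subst h; simp
    · simp [h]
  rw [Finset.sum_congr rfl this]
  simp

theorem ps_P {F : Finset (ℕ × List ℕ)} (hF : IsTree F) (v : Y) (n l) :
    ps (P F v) n l = psum (fun l => if (n, l) ∈ F then cz v (n, l) else 0) l := by
  unfold ps
  congr 1
  funext l
  rw [cz_P hF]

theorem ps_P_of_mem {F : Finset (ℕ × List ℕ)} (hF : IsTree F) (v : Y) {n l} (h : (n, l) ∈ F) :
    ps (P F v) n l = ps v n l := by
  rw [ps_P hF, psum_restrict_of_mem hF (cz v) n l h]
  rfl

theorem S_P_le {F : Finset (ℕ × List ℕ)} (hF : IsTree F) (v : Y) (n) :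
    S (P F v) n ≤ S v n := by
  apply S_le
  intro l
  rw [ps_P hF]
  exact psum_restrict_le hF (cz v) n (fun l => abs_ps_le v n l) l

theorem norm_P_le {F : Finset (ℕ × List ℕ)} (hF : IsTree F) (v : Y) : ‖P F v‖ ≤ ‖v‖ := by
  apply norm_le_of (norm_nonneg _)
  · refine le_trans ?_ (tsum_cz_le v)
    apply Summable.tsum_le_tsum _ (summable_cz _) (summable_cz _)
    intro p
    rw [cz_P hF]
    split_ifs
    · exact le_rfl
    · rw [zero_pow two_ne_zero]; positivity
  · refine le_trans ?_ (tsum_S_le v)
    apply Summable.tsum_le_tsum _ (summable_S _) (summable_S _)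
    intro n
    have := S_P_le hF v n
    have h0 := S_nonneg (P F v) n
    gcongr

theorem psum_eq_sum (z : List ℕ → ℝ) (l : List ℕ) :
    psum z l = ∑ i ∈ Finset.range (l.length + 1), z (l.drop i) := by
  induction l with
  | nil => simp
  | cons k l ih =>
    rw [psum_cons, List.length_cons, Finset.sum_range_succ', ih, add_comm]
    simp

theorem sq_ps_le_of_length (v : Y) (n : ℕ) (l : List ℕ) :
    ps v n l ^ 2 ≤ (l.length + 1) * ∑' p, cz v p ^ 2 := by
  unfold ps
  rw [psum_eq_sum]
  refine le_trans (sq_sum_le_card_mul_sum_sq) ?_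
  rw [Finset.card_range]
  push_cast
  gcongr
  have hinj : Set.InjOn (fun i => ((n, l.drop i) : ℕ × List ℕ)) (Finset.range (l.length + 1)) := by
    intro i hi j hj hij
    simp only [Prod.mk.injEq, true_and] at hij
    simp only [Finset.coe_range, mem_Iio] at hi hj
    have := congrArg List.length hij
    simp only [List.length_drop] at this
    omega
  have : ∑ i ∈ Finset.range (l.length + 1), cz v (n, l.drop i) ^ 2 =
      ∑ p ∈ (Finset.range (l.length + 1)).image (fun i => ((n, l.drop i) : ℕ × List ℕ)),
        cz v p ^ 2 := by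
    rw [Finset.sum_image hinj]
  rw [this]
  exact (summable_cz v).sum_le_tsum _ (fun p _ => by positivity)

theorem sq_ps_le (v : Y) (n : ℕ) (l : List ℕ) :
    ps v n l ^ 2 ≤ (n + 1) * ∑' p, cz v p ^ 2 := by
  have h0 : 0 ≤ ∑' p, cz v p ^ 2 := tsum_nonneg fun p => by positivity
  induction l with
  | nil =>
    refine le_trans (sq_ps_le_of_length v n []) ?_
    refine mul_le_mul_of_nonneg_right ?_ h0
    simp
  | cons k l ih =>
    by_cases h : (k :: l).length ≤ n
    · refine le_trans (sq_ps_le_of_length v n _) ?_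
      refine mul_le_mul_of_nonneg_right ?_ h0
      have : ((k :: l).length : ℝ) ≤ n := by exact_mod_cast h
      linarith
    · rw [ps_cons, cz_eq_zero v (by omega), zero_add]
      exact ih

theorem sq_S_le (v : Y) (n : ℕ) : S v n ^ 2 ≤ (n + 1) * ∑' p, cz v p ^ 2 := by
  have h0 : 0 ≤ ∑' p, cz v p ^ 2 := tsum_nonneg fun p => by positivity
  have h1 : S v n ≤ √((n + 1) * ∑' p, cz v p ^ 2) := by
    apply S_le
    intro l
    exact Real.abs_le_sqrt (sq_ps_le v n l)
  calc S v n ^ 2 ≤ √((n + 1) * ∑' p, cz v p ^ 2) ^ 2 := by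
        have := S_nonneg v n
        gcongr
    _ = _ := Real.sq_sqrt (by positivity)

end Vale.Agent.H13.P069
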