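import Vale.Agent.H13.P069.DualApprox2
import Vale.Agent.H13.P069.Defs

namespace Vale.Agent.H13.P069

open Set Filter Topology
open scoped ENNReal

theorem psum_congr_suffix {z w : List ℕ → ℝ} (l : List ℕ) (h : ∀ l', l' <:+ l → z l' = w l') :
    psum z l = psum w l := by
  induction l with
  | nil => exact h [] (List.suffix_refl _)
  | cons k l ih =>
    rw [psum_cons, psum_cons, h _ (List.suffix_refl _),
      ih (fun l' hl' => h l' (hl'.trans (List.suffix_cons k l)))]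

theorem comp_P_apply (x : StrongDual ℝ Y) (F : Finset (ℕ × List ℕ)) :
    x.comp (P F) = ∑ t ∈ F, x (e t) • ev t := by
  ext v
  simp only [ContinuousLinearMap.comp_apply, P_apply, map_sum, map_smul, smul_eq_mul,
    _root_.sum_apply, _root_.smul_apply, ev_apply]
  apply Finset.sum_congr rfl
  intro t _
  ring

theorem norm_comp_P_le (x : StrongDual ℝ Y) {F : Finset (ℕ × List ℕ)} (hF : IsTree F) :
    ‖x.comp (P F)‖ ≤ ‖x‖ := by
  apply ContinuousLinearMap.opNorm_le_bound _ (norm_nonneg _)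
  intro v
  rw [ContinuousLinearMap.comp_apply]
  refine (x.le_opNorm _).trans ?_
  have := norm_P_le hF v
  gcongr

theorem norm_sub_P_le {F : Finset (ℕ × List ℕ)} (hF : IsTree F) (v : Y) :
    ‖v - P F v‖ ≤ 2 * ‖v‖ := by
  refine (norm_sub_le _ _).trans ?_
  have := norm_P_le hF v
  linarith

/-- `x ∘ P F → x` in norm. -/
theorem exists_tree_norm (x : StrongDual ℝ Y) {ε : ℝ} (hε : 0 < ε) :
    ∃ F, IsTree F ∧ (∀ w : Y, (∀ p ∈ F, cz w p = 0) → |x w| ≤ ε * ‖w‖) ∧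
      ‖x - x.comp (P F)‖ ≤ 2 * ε := by
  obtain ⟨F, hF, hx⟩ := exists_tree_dual x hε
  refine ⟨F, hF, hx, ?_⟩
  apply ContinuousLinearMap.opNorm_le_bound _ (by positivity)
  intro v
  have h1 : (x - x.comp (P F)) v = x (v - P F v) := by
    rw [map_sub]; rfl
  rw [h1, Real.norm_eq_abs]
  refine (hx _ ?_).trans ?_
  · intro p hp
    rw [cz_sub_P hF, if_pos hp]
  · have := norm_sub_P_le hF v
    calc ε * ‖v - P F v‖ ≤ ε * (2 * ‖v‖) := by gcongr
      _ = 2 * ε * ‖v‖ := by ring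

section

variable (Φ : StrongDual ℝ (StrongDual ℝ Y))

/-- Coordinates of a bidual element. -/
noncomputable def zc (p : ℕ × List ℕ) : ℝ := Φ (ev p)

noncomputable def zF (F : Finset (ℕ × List ℕ)) : Y := ∑ t ∈ F, zc Φ t • e t

theorem zc_eq_zero {n : ℕ} {l : List ℕ} (h : n < l.length) : zc Φ (n, l) = 0 := by
  have : ev (n, l) = 0 := by
    ext v
    rw [ev_apply, cz_eq_zero v h]
    rfl
  unfold zc
  rw [this, map_zero]

theorem cz_zF {F : Finset (ℕ × List ℕ)} (hF : IsTree F) (p) :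
    cz (zF Φ F) p = if p ∈ F then zc Φ p else 0 := by
  rw [← ev_apply, zF, map_sum]
  have : ∀ t ∈ F, ev p (zc Φ t • e t) = if p = t then zc Φ p else 0 := by
    intro t ht
    rw [map_smul, ev_apply, cz_e (hF.2 t.1 t.2 ht), smul_eq_mul]
    by_cases h : p = t
    · subst h; simp
    · simp [h]
  rw [Finset.sum_congr rfl this]
  simp

theorem norm_zF_le {F : Finset (ℕ × List ℕ)} (hF : IsTree F) : ‖zF Φ F‖ ≤ ‖Φ‖ := by
  obtain ⟨g, hg1, hg2⟩ := exists_dual_vector'' ℝ (zF Φ F)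
  have h1 : g (zF Φ F) = Φ (g.comp (P F)) := by
    rw [comp_P_apply, map_sum, zF, map_sum]
    apply Finset.sum_congr rfl
    intro t _
    rw [map_smul, map_smul, smul_eq_mul, smul_eq_mul]
    show zc Φ t * g (e t) = g (e t) * zc Φ t
    ring
  have h2 : ‖zF Φ F‖ = Φ (g.comp (P F)) := by
    rw [← h1, hg2]; rfl
  rw [h2]
  calc Φ (g.comp (P F)) ≤ |Φ (g.comp (P F))| := le_abs_self _
    _ ≤ ‖Φ‖ * ‖g.comp (P F)‖ := Φ.le_opNorm _
    _ ≤ ‖Φ‖ * 1 := by
        have := (norm_comp_P_le g hF).trans hg1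
        gcongr
    _ = ‖Φ‖ := mul_one _

theorem sum_zc_le (s : Finset (ℕ × List ℕ)) : ∑ p ∈ s, zc Φ p ^ 2 ≤ ‖Φ‖ ^ 2 := by
  have hF : IsTree (treeOf s) := isTree_treeOf s
  have h1 : ∑ p ∈ s.filter (fun p => p.2.length ≤ p.1), zc Φ p ^ 2 = ∑ p ∈ s, zc Φ p ^ 2 := by
    apply Finset.sum_filter_of_ne
    intro p _ hp
    by_contra hcon
    push Not at hcon
    apply hp
    rw [zc_eq_zero (n := p.1) (l := p.2) Φ hcon]
    norm_num
  have h2 : ∑ p ∈ s.filter (fun p => p.2.length ≤ p.1), zc Φ p ^ 2 ≤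
      ∑ p ∈ treeOf s, zc Φ p ^ 2 := by
    apply Finset.sum_le_sum_of_subset_of_nonneg
    · intro p hp
      rw [Finset.mem_filter] at hp
      exact mem_treeOf_self (n := p.1) (l := p.2) hp.1 hp.2
    · intro p _ _
      positivity
  have h3 : ∑ p ∈ treeOf s, zc Φ p ^ 2 = ∑ p ∈ treeOf s, cz (zF Φ (treeOf s)) p ^ 2 := by
    apply Finset.sum_congr rfl
    intro p hp
    rw [cz_zF Φ hF, if_pos hp]
  have h4 : ∑ p ∈ treeOf s, cz (zF Φ (treeOf s)) p ^ 2 ≤ ‖zF Φ (treeOf s)‖ ^ 2 :=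
    ((summable_cz _).sum_le_tsum _ (fun p _ => by positivity)).trans (tsum_cz_le _)
  have h5 := norm_zF_le Φ hF
  have h6 : ‖zF Φ (treeOf s)‖ ^ 2 ≤ ‖Φ‖ ^ 2 := by gcongr
  linarith

theorem sum_psum_le (s : Finset ℕ) (l : ℕ → List ℕ) :
    ∑ n ∈ s, (psum (fun l => zc Φ (n, l)) (l n)) ^ 2 ≤ ‖Φ‖ ^ 2 := by
  set G : Finset (ℕ × List ℕ) := s.biUnion fun n => (l n).tails.toFinset.image (Prod.mk n) with hG
  set F := treeOf G with hFdef
  have hF : IsTree F := isTree_treeOf G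
  have hps : ∀ n ∈ s, psum (fun l => zc Φ (n, l)) (l n) = ps (zF Φ F) n (l n) := by
    intro n hn
    unfold ps
    apply psum_congr_suffix
    intro l' hl'
    rw [cz_zF Φ hF]
    by_cases h : l'.length ≤ n
    · rw [if_pos]
      apply mem_treeOf_self _ h
      rw [hG, Finset.mem_biUnion]
      refine ⟨n, hn, ?_⟩
      rw [Finset.mem_image]
      exact ⟨l', by simpa using hl', rfl⟩
    · rw [zc_eq_zero Φ (by omega), ite_self]
  calc ∑ n ∈ s, (psum (fun l => zc Φ (n, l)) (l n)) ^ 2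
      = ∑ n ∈ s, (ps (zF Φ F) n (l n)) ^ 2 := by
        apply Finset.sum_congr rfl
        intro n hn
        rw [hps n hn]
    _ ≤ ∑ n ∈ s, S (zF Φ F) n ^ 2 := by
        apply Finset.sum_le_sum
        intro n _
        rw [← sq_abs]
        have := abs_ps_le (zF Φ F) n (l n)
        gcongr
    _ ≤ ∑' n, S (zF Φ F) n ^ 2 := (summable_S _).sum_le_tsum _ (fun p _ => by positivity)
    _ ≤ ‖zF Φ F‖ ^ 2 := tsum_S_le _
    _ ≤ ‖Φ‖ ^ 2 := by
        have := norm_zF_le Φ hF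
        gcongr

theorem bdd_psum (n : ℕ) : BddAbove (range fun l => |psum (fun l => zc Φ (n, l)) l|) := by
  refine ⟨‖Φ‖, ?_⟩
  rintro _ ⟨l, rfl⟩
  have := sum_psum_le Φ {n} (fun _ => l)
  rw [Finset.sum_singleton] at this
  exact abs_le_of_sq_le_sq this (norm_nonneg Φ)

noncomputable def Mc (n : ℕ) : ℝ := ⨆ l, |psum (fun l => zc Φ (n, l)) l|

theorem Mc_nonneg (n : ℕ) : 0 ≤ Mc Φ n := Real.iSup_nonneg fun _ => abs_nonneg _

theorem exists_Mc (n : ℕ) : ∃ l, Mc Φ n ≤ 2 * |psum (fun l => zc Φ (n, l)) l| := by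
  rcases (Mc_nonneg Φ n).eq_or_lt with h | h
  · exact ⟨[], by rw [← h]; positivity⟩
  · have : Mc Φ n / 2 < ⨆ l, |psum (fun l => zc Φ (n, l)) l| := by
      show Mc Φ n / 2 < Mc Φ n
      linarith
    obtain ⟨l, hl⟩ := exists_lt_of_lt_ciSup this
    exact ⟨l, by linarith⟩

theorem summable_Mc : Summable fun n => Mc Φ n ^ 2 := by
  choose l hl using exists_Mc Φ
  apply summable_of_sum_le (c := 4 * ‖Φ‖ ^ 2) (fun n => by positivity)
  intro s
  calc ∑ n ∈ s, Mc Φ n ^ 2 ≤ ∑ n ∈ s, 4 * (psum (fun l => zc Φ (n, l)) (l n)) ^ 2 := by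
        apply Finset.sum_le_sum
        intro n _
        rw [← sq_abs (psum _ _)]
        have := hl n
        have h0 := Mc_nonneg Φ n
        nlinarith
    _ = 4 * ∑ n ∈ s, (psum (fun l => zc Φ (n, l)) (l n)) ^ 2 := by rw [Finset.mul_sum]
    _ ≤ _ := by
        have := sum_psum_le Φ s l
        linarith

/-- The element of `Y` representing a bidual element. -/
noncomputable def zY : Y :=
  mkY (zc Φ) (summable_of_sum_le (fun p => by positivity) (sum_zc_le Φ))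
    (fun _ _ h => zc_eq_zero Φ h) (Mc Φ) (summable_Mc Φ)
    (fun n l => le_ciSup (bdd_psum Φ n) l)

theorem zY_spec (x : StrongDual ℝ Y) : Φ x = x (zY Φ) := by
  have key : ∀ ε : ℝ, 0 < ε → |Φ x - x (zY Φ)| ≤ ε * (2 * (‖Φ‖ + ‖zY Φ‖)) := by
    intro ε hε
    obtain ⟨F, hF, hx1, hx2⟩ := exists_tree_norm x hε
    have h1 : Φ (x.comp (P F)) = x (P F (zY Φ)) := by
      rw [comp_P_apply, map_sum, P_apply, map_sum]
      apply Finset.sum_congr rfl
      intro t _
      rw [map_smul, map_smul, smul_eq_mul, smul_eq_mul]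
      show x (e t) * zc Φ t = zc Φ t * x (e t)
      ring
    have h2 : |Φ x - Φ (x.comp (P F))| ≤ ‖Φ‖ * (2 * ε) := by
      rw [← map_sub]
      refine (Φ.le_opNorm _).trans ?_
      gcongr
    have h3 : |x (P F (zY Φ)) - x (zY Φ)| ≤ ε * (2 * ‖zY Φ‖) := by
      rw [abs_sub_comm, ← map_sub]
      refine (hx1 _ ?_).trans ?_
      · intro p hp
        rw [cz_sub_P hF, if_pos hp]
      · have := norm_sub_P_le hF (zY Φ)
        gcongr
    calc |Φ x - x (zY Φ)| = |(Φ x - Φ (x.comp (P F))) + (x (P F (zY Φ)) - x (zY Φ))| := by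
          rw [h1]; congr 1; ring
      _ ≤ _ := (abs_add_le _ _).trans (by linarith)
  have h0 : |Φ x - x (zY Φ)| ≤ 0 := by
    set C := 2 * (‖Φ‖ + ‖zY Φ‖) with hC
    have hC0 : 0 ≤ C := by positivity
    by_contra hcon
    push Not at hcon
    have := key (|Φ x - x (zY Φ)| / (2 * (C + 1))) (by positivity)
    have h2 : |Φ x - x (zY Φ)| / (2 * (C + 1)) * C ≤ |Φ x - x (zY Φ)| / 2 := by
      rw [div_mul_eq_mul_div, div_le_div_iff₀ (by positivity) (by positivity)]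
      nlinarith
    linarith
  exact sub_eq_zero.1 (abs_nonpos_iff.1 h0)

end

theorem isReflexive_Y : IsReflexive Y := by
  intro Φ
  refine ⟨zY Φ, ?_⟩
  ext x
  rw [NormedSpace.dual_def]
  exact (zY_spec Φ x).symm

theorem isReflexive_dual {V : Type*} [NormedAddCommGroup V] [NormedSpace ℝ V]
    (h : IsReflexive V) : IsReflexive (StrongDual ℝ V) := by
  intro Ψ
  refine ⟨Ψ.comp (NormedSpace.inclusionInDoubleDual ℝ V), ?_⟩
  ext Φ
  obtain ⟨v, rfl⟩ := h Φ
  rw [NormedSpace.dual_def, NormedSpace.dual_def]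
  rfl

end Vale.Agent.H13.P069
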