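import Mathlib

/-!
The space `Y` : functions `z` on the disjoint union of the trees `{l : List ℕ // l.length ≤ n}`
with norm `max (ℓ₂ norm of z) (ℓ₂-sum over n of the sup over branches of the partial sums)`.
-/

namespace Vale.Agent.H13.P069

open Set Filter Topology
open scoped ENNReal

/-- Partial sums of `z` along the branch from the root `[]` to `l`. -/
def psum (z : List ℕ → ℝ) : List ℕ → ℝ
  | [] => z []
  | (k :: l) => z (k :: l) + psum z l

@[simp] theorem psum_nil (z : List ℕ → ℝ) : psum z [] = z [] := rfl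
@[simp] theorem psum_cons (z : List ℕ → ℝ) (k : ℕ) (l : List ℕ) :
    psum z (k :: l) = z (k :: l) + psum z l := rfl

theorem psum_add (z w : List ℕ → ℝ) (l : List ℕ) :
    psum (fun l => z l + w l) l = psum z l + psum w l := by
  induction l with
  | nil => rfl
  | cons k l ih => simp [ih]; ring

theorem psum_smul (c : ℝ) (z : List ℕ → ℝ) (l : List ℕ) :
    psum (fun l => c * z l) l = c * psum z l := by
  induction l with
  | nil => rfl
  | cons k l ih => simp [ih]; ring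

theorem psum_zero (l : List ℕ) : psum (fun _ => 0) l = 0 := by
  induction l with
  | nil => rfl
  | cons k l ih => simp [ih]

/-- `ℓ₂` over the nodes. -/
def Hsp : Type := lp (fun _ : ℕ × List ℕ => ℝ) 2

noncomputable instance : NormedAddCommGroup Hsp :=
  inferInstanceAs (NormedAddCommGroup (lp (fun _ : ℕ × List ℕ => ℝ) 2))
noncomputable instance : NormedSpace ℝ Hsp :=
  inferInstanceAs (NormedSpace ℝ (lp (fun _ : ℕ × List ℕ => ℝ) 2))
instance : CompleteSpace Hsp :=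
  inferInstanceAs (CompleteSpace (lp (fun _ : ℕ × List ℕ => ℝ) 2))

/-- `ℓ_∞` over the nodes of one tree. -/
def Isp : Type := lp (fun _ : List ℕ => ℝ) ∞

noncomputable instance : NormedAddCommGroup Isp :=
  inferInstanceAs (NormedAddCommGroup (lp (fun _ : List ℕ => ℝ) ∞))
noncomputable instance : NormedSpace ℝ Isp :=
  inferInstanceAs (NormedSpace ℝ (lp (fun _ : List ℕ => ℝ) ∞))
instance : CompleteSpace Isp :=
  inferInstanceAs (CompleteSpace (lp (fun _ : List ℕ => ℝ) ∞))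

/-- `ℓ₂`-sum of the `ℓ_∞` spaces. -/
def Lsp : Type := lp (fun _ : ℕ => Isp) 2

noncomputable instance : NormedAddCommGroup Lsp :=
  inferInstanceAs (NormedAddCommGroup (lp (fun _ : ℕ => Isp) 2))
noncomputable instance : NormedSpace ℝ Lsp :=
  inferInstanceAs (NormedSpace ℝ (lp (fun _ : ℕ => Isp) 2))
instance : CompleteSpace Lsp :=
  inferInstanceAs (CompleteSpace (lp (fun _ : ℕ => Isp) 2))

noncomputable def Hc (p : ℕ × List ℕ) : Hsp →L[ℝ] ℝ :=
  lp.evalCLM ℝ (fun _ : ℕ × List ℕ => ℝ) 2 p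
noncomputable def Ic (l : List ℕ) : Isp →L[ℝ] ℝ :=
  lp.evalCLM ℝ (fun _ : List ℕ => ℝ) ∞ l
noncomputable def Lc (n : ℕ) : Lsp →L[ℝ] Isp :=
  lp.evalCLM ℝ (fun _ : ℕ => Isp) 2 n

theorem two_pos' : 0 < (2 : ℝ≥0∞).toReal := by norm_num

theorem Hsp_ext {a b : Hsp} (h : ∀ p, Hc p a = Hc p b) : a = b := lp.ext (funext h)
theorem Isp_ext {a b : Isp} (h : ∀ p, Ic p a = Ic p b) : a = b := lp.ext (funext h)
theorem Lsp_ext {a b : Lsp} (h : ∀ p, Lc p a = Lc p b) : a = b := lp.ext (funext h)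

theorem abs_Hc_le (a : Hsp) (p) : |Hc p a| ≤ ‖a‖ :=
  lp.norm_apply_le_norm (p := 2) (E := fun _ : ℕ × List ℕ => ℝ) (by simp) a p
theorem abs_Ic_le (a : Isp) (l) : |Ic l a| ≤ ‖a‖ :=
  lp.norm_apply_le_norm (p := ∞) (E := fun _ : List ℕ => ℝ) (by simp) a l
theorem norm_Lc_le (a : Lsp) (n) : ‖Lc n a‖ ≤ ‖a‖ :=
  lp.norm_apply_le_norm (p := 2) (E := fun _ : ℕ => Isp) (by simp) a n
theorem Isp_norm_le {a : Isp} {C : ℝ} (hC : 0 ≤ C) (h : ∀ l, |Ic l a| ≤ C) : ‖a‖ ≤ C :=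
  lp.norm_le_of_forall_le (E := fun _ : List ℕ => ℝ) (f := a) hC h

theorem summable_Hc (a : Hsp) : Summable fun p => Hc p a ^ 2 := by
  have h := (lp.memℓp (p := 2) (E := fun _ : ℕ × List ℕ => ℝ) a).summable two_pos'
  have h2 : Summable fun p => ‖Hc p a‖ ^ (2 : ℝ≥0∞).toReal := h
  simpa using h2

theorem tsum_Hc (a : Hsp) : ∑' p, Hc p a ^ 2 = ‖a‖ ^ 2 := by
  have h := lp.norm_rpow_eq_tsum (p := 2) (E := fun _ : ℕ × List ℕ => ℝ) two_pos' a
  have h2 : ‖a‖ ^ (2 : ℝ≥0∞).toReal = ∑' p, ‖Hc p a‖ ^ (2 : ℝ≥0∞).toReal := h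
  simpa using h2.symm

theorem summable_Lc (a : Lsp) : Summable fun n => ‖Lc n a‖ ^ 2 := by
  have h := (lp.memℓp (p := 2) (E := fun _ : ℕ => Isp) a).summable two_pos'
  have h2 : Summable fun n => ‖Lc n a‖ ^ (2 : ℝ≥0∞).toReal := h
  simpa using h2

theorem tsum_Lc (a : Lsp) : ∑' n, ‖Lc n a‖ ^ 2 = ‖a‖ ^ 2 := by
  have h := lp.norm_rpow_eq_tsum (p := 2) (E := fun _ : ℕ => Isp) two_pos' a
  have h2 : ‖a‖ ^ (2 : ℝ≥0∞).toReal = ∑' n, ‖Lc n a‖ ^ (2 : ℝ≥0∞).toReal := h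
  simpa using h2.symm

/-- The space as a subspace of `ℓ₂ × ℓ₂(ℓ_∞)`. -/
noncomputable def Ysub : Submodule ℝ (Hsp × Lsp) where
  carrier := {p | (∀ n l, Ic l (Lc n p.2) = psum (fun l => Hc (n, l) p.1) l) ∧
    ∀ n (l : List ℕ), n < l.length → Hc (n, l) p.1 = 0}
  add_mem' := by
    rintro p q ⟨hp, hp'⟩ ⟨hq, hq'⟩
    refine ⟨?_, ?_⟩
    · intro n l
      simp only [Prod.snd_add, Prod.fst_add, map_add]
      rw [psum_add, hp, hq]
    · intro n l h
      simp only [Prod.fst_add, map_add]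
      rw [hp' n l h, hq' n l h, add_zero]
  zero_mem' := by
    refine ⟨?_, ?_⟩
    · intro n l
      simp only [Prod.snd_zero, Prod.fst_zero, map_zero]
      exact (psum_zero l).symm
    · intro n l h
      simp
  smul_mem' := by
    rintro c p ⟨hp, hp'⟩
    refine ⟨?_, ?_⟩
    · intro n l
      simp only [Prod.smul_snd, Prod.smul_fst, map_smul, smul_eq_mul]
      rw [psum_smul, hp]
    · intro n l h
      simp only [Prod.smul_fst, map_smul, smul_eq_mul]
      rw [hp' n l h, mul_zero]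

theorem continuous_psum (n : ℕ) (l : List ℕ) :
    Continuous fun v : Hsp × Lsp => psum (fun l => Hc (n, l) v.1) l := by
  induction l with
  | nil => exact (Hc _).continuous.comp continuous_fst
  | cons k l ih =>
    simp only [psum_cons]
    exact ((Hc _).continuous.comp continuous_fst).add ih

theorem isClosed_Ysub : IsClosed (Ysub : Set (Hsp × Lsp)) := by
  have : (Ysub : Set (Hsp × Lsp)) =
      (⋂ n, ⋂ l, {p : Hsp × Lsp | Ic l (Lc n p.2) = psum (fun l => Hc (n, l) p.1) l}) ∩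
      (⋂ n, ⋂ l : List ℕ, ⋂ (_ : n < l.length), {p : Hsp × Lsp | Hc (n, l) p.1 = 0}) := by
    ext p
    simp only [mem_inter_iff, mem_iInter, mem_ofPred_eq, SetLike.mem_coe]
    rfl
  rw [this]
  refine IsClosed.inter ?_ ?_
  · refine isClosed_iInter fun n => isClosed_iInter fun l => ?_
    exact isClosed_eq ((Ic l).continuous.comp ((Lc n).continuous.comp continuous_snd))
      (continuous_psum n l)
  · refine isClosed_iInter fun n => isClosed_iInter fun l => isClosed_iInter fun _ => ?_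
    exact isClosed_eq ((Hc _).continuous.comp continuous_fst) continuous_const

/-- The Banach space `Y`. -/
def Y : Type := Ysub

noncomputable instance : NormedAddCommGroup Y := inferInstanceAs (NormedAddCommGroup Ysub)
noncomputable instance : NormedSpace ℝ Y := inferInstanceAs (NormedSpace ℝ Ysub)
instance : CompleteSpace Y := isClosed_Ysub.completeSpace_coe

/-- The inclusion in the ambient space. -/
noncomputable def toE : Y →L[ℝ] Hsp × Lsp := Ysub.subtypeL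

/-- Coordinates. -/
noncomputable def cz (v : Y) (p : ℕ × List ℕ) : ℝ := Hc p (toE v).1

/-- Size of the partial sums in the `n`-th component. -/
noncomputable def S (v : Y) (n : ℕ) : ℝ := ‖Lc n (toE v).2‖

/-- partial sums -/
noncomputable def ps (v : Y) (n : ℕ) (l : List ℕ) : ℝ := psum (fun l => cz v (n, l)) l

theorem cz_add (v w : Y) (p) : cz (v + w) p = cz v p + cz w p := rfl
theorem cz_sub (v w : Y) (p) : cz (v - w) p = cz v p - cz w p := rfl
theorem cz_smul (c : ℝ) (v : Y) (p) : cz (c • v) p = c * cz v p := rfl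
theorem cz_zero (p) : cz (0 : Y) p = 0 := rfl
theorem cz_neg (v : Y) (p) : cz (-v) p = - cz v p := rfl

theorem ps_nil (v : Y) (n : ℕ) : ps v n [] = cz v (n, []) := rfl
theorem ps_cons (v : Y) (n k : ℕ) (l : List ℕ) : ps v n (k :: l) = cz v (n, k :: l) + ps v n l :=
  rfl

theorem cz_eq_zero (v : Y) {n : ℕ} {l : List ℕ} (h : n < l.length) : cz v (n, l) = 0 :=
  v.property.2 n l h

theorem ps_eq (v : Y) (n l) : Ic l (Lc n (toE v).2) = ps v n l := v.property.1 n l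

theorem toE_injective : Function.Injective toE := Subtype.val_injective

theorem ext_cz {v w : Y} (h : ∀ p, cz v p = cz w p) : v = w := by
  apply toE_injective
  apply Prod.ext
  · exact Hsp_ext h
  · apply Lsp_ext
    intro n
    apply Isp_ext
    intro l
    rw [ps_eq, ps_eq]
    unfold ps
    congr 1
    funext l
    exact h _

theorem S_nonneg (v : Y) (n) : 0 ≤ S v n := norm_nonneg _

theorem abs_ps_le (v : Y) (n l) : |ps v n l| ≤ S v n := by
  rw [← ps_eq]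
  exact abs_Ic_le _ _

theorem S_le (v : Y) (n) {C : ℝ} (h : ∀ l, |ps v n l| ≤ C) : S v n ≤ C := by
  apply Isp_norm_le ((abs_nonneg _).trans (h []))
  intro l
  rw [ps_eq]
  exact h l

theorem summable_cz (v : Y) : Summable fun p => cz v p ^ 2 := summable_Hc _

theorem summable_S (v : Y) : Summable fun n => S v n ^ 2 := summable_Lc _

theorem tsum_cz (v : Y) : ∑' p, cz v p ^ 2 = ‖(toE v).1‖ ^ 2 := tsum_Hc _

theorem tsum_S (v : Y) : ∑' n, S v n ^ 2 = ‖(toE v).2‖ ^ 2 := tsum_Lc _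

theorem norm_eq (v : Y) : ‖v‖ = max ‖(toE v).1‖ ‖(toE v).2‖ := rfl

theorem tsum_cz_le (v : Y) : ∑' p, cz v p ^ 2 ≤ ‖v‖ ^ 2 := by
  rw [tsum_cz]
  have : ‖(toE v).1‖ ≤ ‖v‖ := le_max_left _ _
  gcongr

theorem tsum_S_le (v : Y) : ∑' n, S v n ^ 2 ≤ ‖v‖ ^ 2 := by
  rw [tsum_S]
  have : ‖(toE v).2‖ ≤ ‖v‖ := le_max_right _ _
  gcongr

theorem norm_le_of {v : Y} {C : ℝ} (hC : 0 ≤ C) (h1 : ∑' p, cz v p ^ 2 ≤ C ^ 2)
    (h2 : ∑' n, S v n ^ 2 ≤ C ^ 2) : ‖v‖ ≤ C := by
  rw [norm_eq]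
  rw [tsum_cz] at h1
  rw [tsum_S] at h2
  exact max_le (abs_le_of_sq_le_sq' h1 hC).2 (abs_le_of_sq_le_sq' h2 hC).2

theorem sq_norm_le_of {v : Y} {C : ℝ} (h1 : ∑' p, cz v p ^ 2 ≤ C)
    (h2 : ∑' n, S v n ^ 2 ≤ C) : ‖v‖ ^ 2 ≤ C := by
  rw [tsum_cz] at h1
  rw [tsum_S] at h2
  rw [norm_eq]
  rcases max_choice ‖(toE v).1‖ ‖(toE v).2‖ with h | h <;> rw [h] <;> assumption

theorem S_le_norm (v : Y) (n) : S v n ≤ ‖v‖ :=
  (norm_Lc_le (toE v).2 n).trans (le_max_right _ _)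

theorem abs_cz_le_norm (v : Y) (p) : |cz v p| ≤ ‖v‖ :=
  (abs_Hc_le (toE v).1 p).trans (le_max_left _ _)

/-- Constructor of elements of `Hsp`. -/
noncomputable def mkH (z : ℕ × List ℕ → ℝ) (hz : Summable fun p => z p ^ 2) : Hsp :=
  (⟨z, memℓp_gen (by simpa using hz)⟩ : lp (fun _ : ℕ × List ℕ => ℝ) 2)

theorem Hc_mkH (z hz p) : Hc p (mkH z hz) = z p := rfl

/-- Constructor of elements of `Isp`. -/
noncomputable def mkI (z : List ℕ → ℝ) (M : ℝ) (hM : ∀ l, |z l| ≤ M) : Isp :=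
  (⟨z, memℓp_infty ⟨M, by rintro _ ⟨l, rfl⟩; exact hM l⟩⟩ : lp (fun _ : List ℕ => ℝ) ∞)

theorem Ic_mkI (z M hM l) : Ic l (mkI z M hM) = z l := rfl

/-- Constructor of elements of `Lsp`. -/
noncomputable def mkL (z : ℕ → Isp) (hz : Summable fun p => ‖z p‖ ^ 2) : Lsp :=
  (⟨z, memℓp_gen (by simpa using hz)⟩ : lp (fun _ : ℕ => Isp) 2)

theorem Lc_mkL (z hz p) : Lc p (mkL z hz) = z p := rfl

/-- Constructor of elements of `Y`. -/
noncomputable def mkY (z : ℕ × List ℕ → ℝ) (hz : Summable fun p => z p ^ 2)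
    (hs : ∀ n (l : List ℕ), n < l.length → z (n, l) = 0) (M : ℕ → ℝ)
    (hM : Summable fun n => M n ^ 2)
    (hb : ∀ n l, |psum (fun l => z (n, l)) l| ≤ M n) : Y :=
  ⟨(mkH z hz, mkL (fun n => mkI (fun l => psum (fun l => z (n, l)) l) (M n) (hb n))
      (Summable.of_nonneg_of_le (fun n => by positivity) (fun n => by
        have h1 : ‖mkI (fun l => psum (fun l => z (n, l)) l) (M n) (hb n)‖ ≤ M n :=
          Isp_norm_le ((abs_nonneg _).trans (hb n [])) (fun l => hb n l)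
        gcongr) hM)), ⟨fun n l => rfl, hs⟩⟩

@[simp] theorem cz_mkY (z hz hs M hM hb) (p) : cz (mkY z hz hs M hM hb) p = z p := rfl

end Vale.Agent.H13.P069
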